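import Vale.Agent.Torus.Exist

namespace Vale.Agent.Torus

open NumberField Matrix MeasureTheory nonZeroDivisors

variable {n : ℕ}

/-- Subsets lying between `m J` and `J` and closed under subtraction and addition. -/
def Between {K : Type} [Field K] (J : Set K) (m : ℤ) : Set (Set K) :=
  {I | I ⊆ J ∧ (∀ β ∈ J, (m : K) * β ∈ I) ∧ (∀ a ∈ I, ∀ b ∈ I, a + b ∈ I) ∧
    ∀ a ∈ I, ∀ b ∈ I, a - b ∈ I}

lemma finite_between {K : Type} [Field K] {J : Set K} {m : ℤ} {T : Set K} (hT : T.Finite)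
    (h : ∀ β ∈ J, ∃ τ ∈ T, ∃ γ ∈ J, β = τ + (m : K) * γ) : (Between J m).Finite := by
  have hinj : Set.InjOn (fun I : Set K ↦ I ∩ T) (Between J m) := by
    have key : ∀ I ∈ Between J m, ∀ I' ∈ Between J m, I ∩ T = I' ∩ T → I ⊆ I' := by
      intro I hI I' hI' hII' β hβ
      obtain ⟨τ, hτ, γ, hγ, hβ'⟩ := h β (hI.1 hβ)
      have h1 : τ ∈ I := by
        have : τ = β - (m : K) * γ := by rw [hβ']; ring
        rw [this]
        exact hI.2.2.2 _ hβ _ (hI.2.1 γ hγ)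
      have h2 : τ ∈ I' ∩ T := by rw [← hII']; exact ⟨h1, hτ⟩
      rw [hβ']
      exact hI'.2.2.1 _ h2.1 _ (hI'.2.1 γ hγ)
    intro I hI I' hI' hII'
    exact Set.Subset.antisymm (key I hI I' hI' hII') (key I' hI' I hI hII'.symm)
  refine Set.Finite.of_finite_image (f := fun I : Set K ↦ I ∩ T) ?_ hinj
  refine (hT.finite_subsets).subset ?_
  rintro _ ⟨I, -, rfl⟩
  exact Set.inter_subset_right

lemma exists_residues {K : Type} [Field K] [NumberField K]
    (J : FractionalIdeal (𝓞 K)⁰ K) {m : ℤ} (hm : m ≠ 0) :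
    ∃ T : Set K, T.Finite ∧ ∀ β ∈ J, ∃ τ ∈ T, ∃ γ ∈ J, β = τ + (m : K) * γ := by
  classical
  have hfin : Module.Finite ℤ (J : Submodule (𝓞 K) K) := by
    have h1 : Module.Finite (𝓞 K) (J : Submodule (𝓞 K) K) := by
      have : IsNoetherian (𝓞 K) (J : Submodule (𝓞 K) K) := FractionalIdeal.isNoetherian J
      exact Module.IsNoetherian.finite (𝓞 K) _
    exact Module.Finite.trans (𝓞 K) _
  obtain ⟨r, g, hg⟩ := Module.Finite.exists_fin (R := ℤ) (M := (J : Submodule (𝓞 K) K))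
  refine ⟨Set.range fun k : Fin r → Fin m.natAbs ↦ ∑ i, ((k i : ℕ) : K) * (g i : K),
    Set.finite_range _, fun β hβ ↦ ?_⟩
  have h1 : (⟨β, hβ⟩ : (J : Submodule (𝓞 K) K)) ∈ Submodule.span ℤ (Set.range g) := by
    rw [hg]; trivial
  rw [Submodule.mem_span_range_iff_exists_fun] at h1
  obtain ⟨z, hz⟩ := h1
  have hz' : β = ∑ i, (z i : K) * (g i : K) := by
    have := congrArg (Submodule.subtype (J : Submodule (𝓞 K) K)) hz
    rw [map_sum] at this
    refine this.symm.trans (Finset.sum_congr rfl fun i _ ↦ ?_)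
    simp
  have hlt : ∀ i, (z i % m).toNat < m.natAbs := by
    intro i
    have h2 := Int.emod_nonneg (z i) hm
    have h3 := Int.emod_lt_abs (z i) hm
    rw [← Int.natCast_natAbs] at h3
    omega
  refine ⟨_, ⟨fun i ↦ ⟨(z i % m).toNat, hlt i⟩, rfl⟩, ∑ i, ((z i / m : ℤ) : K) * (g i : K), ?_, ?_⟩
  · change _ ∈ (J : Submodule (𝓞 K) K)
    refine Submodule.sum_mem _ fun i _ ↦ ?_
    rw [← zsmul_eq_mul]
    exact zsmul_mem (g i).2 _
  · rw [hz', Finset.mul_sum, ← Finset.sum_add_distrib]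
    refine Finset.sum_congr rfl fun i _ ↦ ?_
    have h2 : ((z i % m).toNat : K) = ((z i % m : ℤ) : K) := by
      have := Int.toNat_of_nonneg (Int.emod_nonneg (z i) hm)
      rw [← Int.cast_natCast, this]
    change _ = ((z i % m).toNat : K) * (g i : K) + _
    rw [h2]
    have h3 : (z i : K) = ((z i % m : ℤ) : K) + (m : K) * ((z i / m : ℤ) : K) := by
      rw [← Int.cast_mul, ← Int.cast_add, Int.emod_add_mul_ediv]
    rw [h3]; ring

/-- Points of proportional shapes with the same signs lie on the same orbit. -/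
lemma orbit_eq_of_shape {d : Datum n} {x x' : X n} {I : Set d.K} {t t' : Fin n → ℝ}
    (h : HasShape d x I t) (h' : HasShape d x' I t') (ht : ∀ j, 0 < t' j / t j) :
    orbit x = orbit x' := by
  have ht0 : ∀ j, t j ≠ 0 := fun j h0 ↦ by
    have := ht j
    rw [h0, div_zero] at this
    exact lt_irrefl _ this
  have hlat : x'.lattice = (fun z j ↦ z j * (t' j / t j)) '' x.lattice := by
    rw [show x'.lattice = _ from h', show x.lattice = _ from h]
    ext y
    constructor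
    · rintro ⟨α, hα, rfl⟩
      refine ⟨_, ⟨α, hα, rfl⟩, ?_⟩
      ext j
      have := ht0 j
      change t j * d.σ j α * (t' j / t j) = _
      field_simp
    · rintro ⟨_, ⟨α, hα, rfl⟩, rfl⟩
      refine ⟨α, hα, ?_⟩
      ext j
      have := ht0 j
      change t j * d.σ j α * (t' j / t j) = _
      field_simp
  obtain ⟨u, rfl, -⟩ := exists_orbitMap_eq ht hlat
  ext y
  constructor
  · rintro ⟨v, rfl⟩
    refine ⟨v - u, ?_⟩
    rw [← orbitMap_add', add_sub_cancel]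
  · rintro ⟨v, rfl⟩
    refine ⟨u + v, ?_⟩
    rw [orbitMap_add']

/-- The fractional ideal of the maximal order generated by an `O`-ideal. -/
lemma exists_fractionalIdeal {d : Datum n} {I : Set d.K} (hI : IsProperInvertible d.O I) {m : ℤ}
    (hm : ∀ x : d.K, IsIntegral ℤ x → (m : d.K) * x ∈ d.O) :
    ∃ J : (FractionalIdeal (𝓞 d.K)⁰ d.K)ˣ, (∀ α ∈ I, α ∈ (J : FractionalIdeal (𝓞 d.K)⁰ d.K)) ∧
      ∀ α ∈ (J : FractionalIdeal (𝓞 d.K)⁰ d.K), (m : d.K) * α ∈ I := by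
  obtain ⟨r, g, hg⟩ := hI.1
  let P : Submodule (𝓞 d.K) d.K := Submodule.span (𝓞 d.K) (Set.range g)
  have hP : _root_.IsFractional (𝓞 d.K)⁰ P :=
    FractionalIdeal.isFractional_of_fg (Submodule.fg_span (Set.finite_range g))
  let J : FractionalIdeal (𝓞 d.K)⁰ d.K := ⟨P, hP⟩
  have hIJ : ∀ α ∈ I, α ∈ J := by
    intro α hα
    rw [hg] at hα
    obtain ⟨a, ha, rfl⟩ := hα
    change _ ∈ P
    refine Submodule.sum_mem _ fun i _ ↦ ?_
    have : a i * g i = (⟨a i, d.isOrder.1 _ (ha i)⟩ : 𝓞 d.K) • g i := rfl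
    rw [this]
    exact Submodule.smul_mem _ _ (Submodule.subset_span ⟨i, rfl⟩)
  have hJI : ∀ α ∈ J, (m : d.K) * α ∈ I := by
    intro α hα
    change α ∈ P at hα
    rw [Submodule.mem_span_range_iff_exists_fun] at hα
    obtain ⟨c, rfl⟩ := hα
    rw [hg]
    refine ⟨fun i ↦ (m : d.K) * (c i : d.K), fun i ↦ hm _ (c i).2, ?_⟩
    rw [Finset.mul_sum]
    refine Finset.sum_congr rfl fun i _ ↦ ?_
    rw [Algebra.smul_def, mul_assoc]
  have hJ0 : J ≠ 0 := by
    intro h0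
    have h1 : ∀ α ∈ I, α = 0 := by
      intro α hα
      have := hIJ α hα
      rw [h0] at this
      exact (FractionalIdeal.mem_zero_iff _).mp this
    obtain ⟨I', -, hI'⟩ := hI.2.2
    have h2 : (1 : d.K) ∈ idealMul I I' := by
      rw [hI']; exact d.O.one_mem
    obtain ⟨s, x, y, hxy, h3⟩ := h2
    have h4 : ∑ i, x i * y i = 0 := Finset.sum_eq_zero fun i _ ↦ by rw [h1 _ (hxy i).1, zero_mul]
    rw [h4] at h3
    exact one_ne_zero h3
  exact ⟨Units.mk0 J hJ0, hIJ, hJI⟩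

lemma exists_mul_of_mk_eq {K : Type} [Field K] [NumberField K]
    {J J' : (FractionalIdeal (𝓞 K)⁰ K)ˣ} (h : ClassGroup.mk K J = ClassGroup.mk K J') :
    ∃ α : K, α ≠ 0 ∧ (J : FractionalIdeal (𝓞 K)⁰ K) =
      FractionalIdeal.spanSingleton (𝓞 K)⁰ α * (J' : FractionalIdeal (𝓞 K)⁰ K) := by
  have h1 : ClassGroup.mk K (J * J'⁻¹) = 1 := by
    rw [map_mul, map_inv, h, mul_inv_cancel]
  rw [ClassGroup.mk_eq_one_iff] at h1
  have h2 := (FractionalIdeal.isPrincipal_iff _).mp h1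
  obtain ⟨α, hα⟩ := h2
  have h3 : (J : FractionalIdeal (𝓞 K)⁰ K) =
      FractionalIdeal.spanSingleton (𝓞 K)⁰ α * (J' : FractionalIdeal (𝓞 K)⁰ K) := by
    rw [← hα, Units.val_mul, mul_assoc, Units.inv_mul, mul_one]
  refine ⟨α, ?_, h3⟩
  rintro rfl
  rw [FractionalIdeal.spanSingleton_zero, zero_mul] at h3
  exact J.ne_zero h3

theorem packet_finite (d : Datum n) : (packet d.σ d.O).Finite := by
  classical
  obtain ⟨m, hm0, hm⟩ := d.exists_mul_mem
  have hex : ∀ c : ClassGroup (𝓞 d.K), ∃ S : Set (Set d.K), S.Finite ∧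
      ∀ (I : Set d.K) (J : (FractionalIdeal (𝓞 d.K)⁰ d.K)ˣ), IsProperInvertible d.O I →
        (∀ α ∈ I, α ∈ (J : FractionalIdeal (𝓞 d.K)⁰ d.K)) →
        (∀ α ∈ (J : FractionalIdeal (𝓞 d.K)⁰ d.K), (m : d.K) * α ∈ I) →
        ClassGroup.mk d.K J = c → ∃ α : d.K, α ≠ 0 ∧ ∃ I' ∈ S, I = {z | ∃ β ∈ I', z = α * β} := by
    intro c
    by_cases hc : ∃ J' : (FractionalIdeal (𝓞 d.K)⁰ d.K)ˣ, ClassGroup.mk d.K J' = c
    · obtain ⟨J', hJ'⟩ := hc
      obtain ⟨T, hT, hres⟩ := exists_residues (J' : FractionalIdeal (𝓞 d.K)⁰ d.K) hm0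
      refine ⟨Between (J' : Set d.K) m, finite_between hT hres, ?_⟩
      intro I J hI hIJ hJI hJc
      obtain ⟨α, hα, hαJ⟩ := exists_mul_of_mk_eq (hJc.trans hJ'.symm)
      have hadd : ∀ a ∈ I, ∀ b ∈ I, a + b ∈ I := by
        obtain ⟨r, g, hg⟩ := hI.1
        rw [hg]
        rintro _ ⟨a, ha, rfl⟩ _ ⟨b, hb, rfl⟩
        refine ⟨fun i ↦ a i + b i, fun i ↦ d.O.add_mem (ha i) (hb i), ?_⟩
        rw [← Finset.sum_add_distrib]
        exact Finset.sum_congr rfl fun i _ ↦ by ring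
      have hneg : ∀ a ∈ I, ∀ b ∈ I, a - b ∈ I := by
        obtain ⟨r, g, hg⟩ := hI.1
        rw [hg]
        rintro _ ⟨a, ha, rfl⟩ _ ⟨b, hb, rfl⟩
        refine ⟨fun i ↦ a i - b i, fun i ↦ d.O.sub_mem (ha i) (hb i), ?_⟩
        rw [← Finset.sum_sub_distrib]
        exact Finset.sum_congr rfl fun i _ ↦ by ring
      refine ⟨α, hα, {β | α * β ∈ I}, ⟨?_, ?_, ?_, ?_⟩, ?_⟩
      · intro β hβ
        have h1 := hIJ _ hβ
        rw [hαJ, FractionalIdeal.mem_singleton_mul] at h1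
        obtain ⟨γ, hγ, h2⟩ := h1
        have : β = γ := mul_left_cancel₀ hα h2
        rw [this]; exact hγ
      · intro β hβ
        change α * ((m : d.K) * β) ∈ I
        have h1 : α * β ∈ (J : FractionalIdeal (𝓞 d.K)⁰ d.K) := by
          rw [hαJ, FractionalIdeal.mem_singleton_mul]
          exact ⟨β, hβ, rfl⟩
        have h2 := hJI _ h1
        rwa [mul_left_comm] at h2
      · intro a ha b hb
        change α * (a + b) ∈ I
        rw [mul_add]
        exact hadd _ ha _ hb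
      · intro a ha b hb
        change α * (a - b) ∈ I
        rw [mul_sub]
        exact hneg _ ha _ hb
      · ext z
        constructor
        · intro hz
          refine ⟨α⁻¹ * z, ?_, (mul_inv_cancel_left₀ hα z).symm⟩
          change α * (α⁻¹ * z) ∈ I
          rwa [mul_inv_cancel_left₀ hα]
        · rintro ⟨β, hβ, rfl⟩
          exact hβ
    · exact ⟨∅, Set.finite_empty, fun I J _ _ _ hJc ↦ (hc ⟨J, hJc⟩).elim⟩
  choose S hS hSI using hex
  have hfin : (⋃ c : ClassGroup (𝓞 d.K), ⋃ I' ∈ S c, ⋃ s : Fin n → Bool,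
      {O' : Set (X n) | ∃ x t, HasShape d x I' t ∧ (∀ j, t j ≠ 0 ∧ (0 < t j ↔ s j = true)) ∧
        O' = orbit x}).Finite := by
    refine Set.finite_iUnion fun c ↦ (hS c).biUnion fun I' _ ↦ Set.finite_iUnion fun s ↦ ?_
    apply Set.Subsingleton.finite
    rintro _ ⟨x, t, hx, hs, rfl⟩ _ ⟨x', t', hx', hs', rfl⟩
    refine orbit_eq_of_shape hx hx' fun j ↦ ?_
    rcases lt_or_gt_of_ne (hs j).1 with h | h
    · have h1 : ¬ (0 < t' j) := by
        rw [(hs' j).2, ← (hs j).2]; exact not_lt.mpr h.le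
      exact div_pos_of_neg_of_neg (lt_of_le_of_ne (not_lt.mp h1) (hs' j).1) h
    · exact div_pos (by rw [(hs' j).2, ← (hs j).2]; exact h) h
  refine hfin.subset ?_
  rintro O' ⟨I, hI, w, hw, c, hc, x, hx, rfl⟩
  obtain ⟨J, hIJ, hJI⟩ := exists_fractionalIdeal hI hm
  obtain ⟨α, hα, I', hI', hII'⟩ := hSI _ I J hI hIJ hJI rfl
  have hw0 : ∀ j, w j ≠ 0 := fun j ↦ by rcases hw j with h | h <;> rw [h] <;> norm_num
  have hσ0 : ∀ j, d.σ j α ≠ 0 := fun j ↦ by rw [Ne, map_eq_zero]; exact hα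
  refine Set.mem_iUnion.mpr ⟨_, Set.mem_iUnion₂.mpr ⟨I', hI', Set.mem_iUnion.mpr
    ⟨fun j ↦ decide (0 < c * w j * d.σ j α), x, fun j ↦ c * w j * d.σ j α, ?_, fun j ↦ ⟨?_, ?_⟩,
      rfl⟩⟩⟩
  · unfold HasShape
    rw [hx, hII']
    ext y
    constructor
    · rintro ⟨_, ⟨β, hβ, rfl⟩, rfl⟩
      exact ⟨β, hβ, by ext j; simp only [map_mul]; ring⟩
    · rintro ⟨β, hβ, rfl⟩
      exact ⟨_, ⟨β, hβ, rfl⟩, by ext j; simp only [map_mul]; ring⟩
  · exact mul_ne_zero (mul_ne_zero hc.ne' (hw0 j)) (hσ0 j)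
  · simp

/-- Each orbit of the packet has positive finite volume. -/
lemma orbitMeasure_univ (d : Datum n) {S : Set (X n)} (hS : S ∈ packet d.σ d.O) :
    orbitMeasure S Set.univ ≠ 0 ∧ orbitMeasure S Set.univ ≠ ⊤ := by
  obtain ⟨I, hI, w, hw, c, hc, x, hx, rfl⟩ := hS
  have h : ∃ x', orbit x = orbit x' := ⟨x, rfl⟩
  have hx' : h.choose ∈ orbit x :=
    (Set.ext_iff.mp h.choose_spec _).mpr (mem_orbit_self _)
  obtain ⟨u, hu⟩ := hx'
  have hshape : HasShape d x I (fun j ↦ c * w j) := by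
    unfold HasShape
    rw [hx]
    ext y
    constructor
    · rintro ⟨α, hα, rfl⟩
      exact ⟨α, hα, by ext j; ring⟩
    · rintro ⟨α, hα, rfl⟩
      exact ⟨α, hα, by ext j; ring⟩
  have hmul : ∀ a ∈ d.O, ∀ α ∈ I, a * α ∈ I := fun a ha ↦ (hI.2.1 a).mpr ha
  have hspan := span_stab (hshape.orbitMap u) hmul
  have key := pushVolume_univ _ hspan
  rw [orbitMeasure, dif_pos h]
  rw [hu] at key
  exact key

/-- The packet measures are probability measures. -/
theorem isProbabilityMeasure_packetMeasure (d : Datum n) :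
    IsProbabilityMeasure d.packetMeasure := by
  have hfin : Finite (packet d.σ d.O) := (packet_finite d).to_subtype
  have : Fintype (packet d.σ d.O) := Fintype.ofFinite _
  obtain ⟨S₀, hS₀⟩ := packet_nonempty d
  have h1 : orbitSum (packet d.σ d.O) Set.univ =
      ∑ S : packet d.σ d.O, orbitMeasure S.1 Set.univ := by
    rw [orbitSum, Measure.sum_apply _ MeasurableSet.univ, tsum_fintype]
  have h0 : orbitSum (packet d.σ d.O) Set.univ ≠ 0 := by
    rw [h1]
    intro h2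
    rw [Finset.sum_eq_zero_iff] at h2
    exact (orbitMeasure_univ d hS₀).1 (h2 ⟨S₀, hS₀⟩ (Finset.mem_univ _))
  have htop : orbitSum (packet d.σ d.O) Set.univ ≠ ⊤ := by
    rw [h1]
    exact (ENNReal.sum_lt_top.mpr fun S _ ↦ (orbitMeasure_univ d S.2).2.lt_top).ne
  constructor
  rw [Datum.packetMeasure, normalise, Measure.smul_apply, smul_eq_mul,
    ENNReal.inv_mul_cancel h0 htop]

end Vale.Agent.Torus
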