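import Mathlib

/-!
Definitions for the higher-dimensional Duke problem: the space of lattices
`X_n = SL_n(ℤ)\SL_n(ℝ)`, the diagonal flow, orbit measures, and packet measures attached to
orders in totally real number fields.
-/

namespace Vale.Agent.Torus

open MeasureTheory Matrix Filter Topology

/-- The group `SL_n(ℝ)`. -/
abbrev G (n : ℕ) : Type := Matrix.SpecialLinearGroup (Fin n) ℝ

/-- The orbit relation of the left multiplication action of `SL_n(ℤ)` on `SL_n(ℝ)`. -/
def rel (n : ℕ) : Setoid (G n) :=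
  MulAction.orbitRel (Matrix.SpecialLinearGroup.map (n := Fin n) (Int.castRingHom ℝ)).range (G n)

/-- The space `X_n = SL_n(ℤ)\SL_n(ℝ)`. -/
def X (n : ℕ) : Type := Quotient (rel n)

/-- The class `SL_n(ℤ) g`. -/
def X.mk {n : ℕ} (g : G n) : X n := Quotient.mk (rel n) g

/-- The quotient topology. -/
instance (n : ℕ) : TopologicalSpace (X n) := TopologicalSpace.coinduced X.mk inferInstance

instance (n : ℕ) : MeasurableSpace (X n) := borel (X n)

/-- Right translation `SL_n(ℤ) g ↦ SL_n(ℤ) g h` on `X_n` (computed on a representative). -/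
noncomputable def X.act {n : ℕ} (h : G n) (x : X n) : X n := X.mk (Quotient.out x * h)

/-- The lattice `ℤⁿ g` (integral combinations of the rows of `g`) attached to `SL_n(ℤ) g`
(computed on a representative). -/
noncomputable def X.lattice {n : ℕ} (x : X n) : Set (Fin n → ℝ) :=
  {y | ∃ v : Fin n → ℤ, y = (fun i ↦ (v i : ℝ)) ᵥ* (Quotient.out x).1}

lemma det_diagA {n : ℕ} (u : Fin (n - 1) → ℝ) :
    (Matrix.diagonal (fun j : Fin n ↦
      if h : (j : ℕ) < n - 1 then Real.exp (u ⟨j, h⟩) else Real.exp (-∑ i, u i))).det = 1 := by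
  rw [Matrix.det_diagonal]
  rcases n with _ | m
  · simp
  · rw [Fin.prod_univ_castSucc]
    simp [← Real.exp_sum, ← Real.exp_add]

/-- The element `diag(e^{u_1},…,e^{u_{n-1}},e^{-(u_1+⋯+u_{n-1})})` of `A_n`. -/
noncomputable def diagA {n : ℕ} (u : Fin (n - 1) → ℝ) : G n :=
  ⟨Matrix.diagonal (fun j : Fin n ↦
    if h : (j : ℕ) < n - 1 then Real.exp (u ⟨j, h⟩) else Real.exp (-∑ i, u i)), det_diagA u⟩

/-- The map `u ↦ x a(u)` from `ℝ^{n-1} = A_n` to `X_n`. -/
noncomputable def orbitMap {n : ℕ} (x : X n) : (Fin (n - 1) → ℝ) → X n :=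
  fun u ↦ X.act (diagA u) x

/-- The orbit `x A_n`. -/
def orbit {n : ℕ} (x : X n) : Set (X n) := Set.range (orbitMap x)

/-- `F` is a measurable fundamental domain for `φ`: each value is taken exactly once on `F`. -/
def IsDomain {E Y : Type} [MeasurableSpace E] (φ : E → Y) (F : Set E) : Prop :=
  MeasurableSet F ∧ Set.BijOn φ F (Set.range φ)

open Classical in
/-- The push-forward under `φ` of the volume of `E` restricted to a fundamental domain. -/
noncomputable def pushVolume {E Y : Type} [MeasureSpace E] [MeasurableSpace Y] (φ : E → Y) :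
    Measure Y :=
  if h : ∃ F, IsDomain φ F then (volume.restrict h.choose).map φ else 0

open Classical in
/-- For an orbit `S = x A_n`: the measure `vol(S) ν_S`, that is, the image on `S` of
Lebesgue measure `du_1 ⋯ du_{n-1}` on a fundamental domain of `A_n → S`. -/
noncomputable def orbitMeasure {n : ℕ} (S : Set (X n)) : Measure (X n) :=
  if h : ∃ x, S = orbit x then pushVolume (orbitMap h.choose) else 0

/-- An order of a number field `K`: a full-rank subring of the ring of integers. -/
def IsOrder {K : Type} [Field K] (O : Subring K) : Prop :=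
  (∀ x ∈ O, IsIntegral ℤ x) ∧ ∀ x : K, ∃ k : ℤ, k ≠ 0 ∧ (k : K) * x ∈ O

/-- Fractional ideals: finitely generated `O`-submodules of `K`. -/
def IsFractional {K : Type} [Field K] (O : Subring K) (I : Set K) : Prop :=
  ∃ (r : ℕ) (g : Fin r → K), I = {z | ∃ a : Fin r → K, (∀ i, a i ∈ O) ∧ z = ∑ i, a i * g i}

/-- The product of two ideals: finite sums of products. -/
def idealMul {K : Type} [Field K] (I J : Set K) : Set K :=
  {z | ∃ (r : ℕ) (x y : Fin r → K), (∀ i, x i ∈ I ∧ y i ∈ J) ∧ z = ∑ i, x i * y i}

/-- Proper invertible fractional `O`-ideals. -/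
def IsProperInvertible {K : Type} [Field K] (O : Subring K) (I : Set K) : Prop :=
  IsFractional O I ∧ (∀ α : K, (∀ x ∈ I, α * x ∈ I) ↔ α ∈ O) ∧
    ∃ J : Set K, IsFractional O J ∧ idealMul I J = O

/-- The packet: all orbits `Λ_I w A_n`, where `I` runs over the proper invertible fractional
ideals of `O`, `w` over the diagonal sign matrices, and `Λ_I w = {c σ(α) w : α ∈ I}` with `c > 0`
such that this is a covolume one lattice, that is, a point of `X_n`. -/
def packet {K : Type} [Field K] {n : ℕ} (σ : Fin n → K →+* ℝ) (O : Subring K) : Set (Set (X n)) :=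
  {S | ∃ I : Set K, IsProperInvertible O I ∧
    ∃ w : Fin n → ℝ, (∀ j, w j = 1 ∨ w j = -1) ∧ ∃ c : ℝ, 0 < c ∧
    ∃ x : X n, x.lattice = {y | ∃ α ∈ I, y = fun j ↦ c * σ j α * w j} ∧ S = orbit x}

/-- The sum `∑ vol(S) ν_S` over a set `P` of orbits. -/
noncomputable def orbitSum {n : ℕ} (P : Set (Set (X n))) : Measure (X n) :=
  Measure.sum (fun S : P ↦ orbitMeasure S.1)

/-- The normalisation `μ / μ(Y)`. -/
noncomputable def normalise {Y : Type} [MeasurableSpace Y] (μ : Measure Y) : Measure Y :=
  (μ Set.univ)⁻¹ • μ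

/-- A totally real field `K` of degree `n`, an ordering `σ_1,…,σ_n` of its real embeddings
(all of its embeddings into `ℂ` are real, since there are `n` of them), and an order `O` of `K`. -/
structure Datum (n : ℕ) where
  K : Type
  [field : Field K]
  [numberField : NumberField K]
  finrank_eq : Module.finrank ℚ K = n
  σ : Fin n → K →+* ℝ
  σ_bij : Function.Bijective σ
  O : Subring K
  isOrder : IsOrder O

attribute [instance] Datum.field Datum.numberField

/-- The packet measure `μ_{O,σ}`: the sum of `vol(S) ν_S` over the distinct orbits `S` of the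
packet, divided by its total mass. -/
noncomputable def Datum.packetMeasure {n : ℕ} (d : Datum n) : Measure (X n) :=
  normalise (orbitSum (packet d.σ d.O))

/-- `|Disc O| = |Disc K| [O_K : O]²`. -/
noncomputable def absDisc {K : Type} [Field K] [NumberField K] (O : Subring K) : ℕ :=
  (NumberField.discr K).natAbs *
    (O.toAddSubgroup.relIndex (integralClosure ℤ K).toSubring.toAddSubgroup) ^ 2

/-- `O` is the maximal order of `K`. -/
def IsMaximal {K : Type} [Field K] (O : Subring K) : Prop := ∀ x : K, IsIntegral ℤ x → x ∈ O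

/-- Every element of `O` all of whose conjugates have absolute value at most `C` is rational. -/
def SmallRational {K : Type} [Field K] {n : ℕ} (σ : Fin n → K →+* ℝ) (O : Subring K) (C : ℝ) :
    Prop :=
  ∀ a ∈ O, (∀ j, |σ j a| ≤ C) → ∃ q : ℚ, a = q

/-- `ν` is an `SL_n(ℝ)`-invariant Borel probability measure on `X_n`. -/
def IsInvariantProbability {n : ℕ} (ν : Measure (X n)) : Prop :=
  IsProbabilityMeasure ν ∧ ∀ h : G n, ν.map (X.act h) = ν

/-- Weak convergence `μ_i → ν` tested on `C_c(X_n)`, without escape of mass. -/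
def ConvergesTo {n : ℕ} (μ : ℕ → Measure (X n)) (ν : Measure (X n)) : Prop :=
  (∀ f : X n → ℝ, Continuous f → HasCompactSupport f →
    Tendsto (fun i ↦ ∫ x, f x ∂(μ i)) atTop (𝓝 (∫ x, f x ∂ν))) ∧
  ∀ ε : ℝ, 0 < ε → ∃ C : Set (X n), IsCompact C ∧
    ∀ᶠ i in atTop, ENNReal.ofReal (1 - ε) ≤ μ i C

end Vale.Agent.Torus
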