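import Vale.Agent.Torus.Stab

namespace Vale.Agent.Torus

open MeasureTheory Matrix Filter Topology

variable {n : ℕ}

lemma isAddFundamentalDomain_of_isDomain {x : X n} {F : Set (Fin (n - 1) → ℝ)}
    (hF : IsDomain (orbitMap x) F) : IsAddFundamentalDomain (stab x) F volume where
  nullMeasurableSet := hF.1.nullMeasurableSet
  ae_covers := by
    refine Eventually.of_forall fun u ↦ ?_
    obtain ⟨f, hf, hfu⟩ := hF.2.surjOn ⟨u, rfl⟩
    refine ⟨⟨f - u, ?_⟩, ?_⟩
    · exact orbitMap_eq_iff.mp hfu.symm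
    · change (f - u) + u ∈ F
      rw [sub_add_cancel]; exact hf
  aedisjoint := by
    intro a b hab
    apply Disjoint.aedisjoint
    rw [Set.disjoint_left]
    rintro _ ⟨u, hu, rfl⟩ ⟨v, hv, huv⟩
    apply hab
    have h1 : (b : Fin (n - 1) → ℝ) + v = a + u := huv
    have h2 : u - v ∈ stab x := by
      have : u - v = (b : Fin (n - 1) → ℝ) - a := by
        rw [sub_eq_sub_iff_add_eq_add, add_comm u]
        exact h1.symm
      rw [this]
      exact (stab x).sub_mem b.2 a.2
    have h3 : u = v := hF.2.injOn hu hv (orbitMap_eq_iff.mpr (by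
      have := (stab x).neg_mem h2
      rwa [neg_sub] at this))
    rw [h3] at h1
    exact Subtype.ext (add_right_cancel h1).symm

/-- The stabiliser as a `ℤ`-submodule. -/
noncomputable def stabZ (x : X n) : Submodule ℤ (Fin (n - 1) → ℝ) := AddSubgroup.toIntSubmodule (stab x)

instance (x : X n) : DiscreteTopology (stabZ x) := stab_discrete x

lemma exists_isDomain (x : X n)
    (hspan : Submodule.span ℝ (stab x : Set (Fin (n - 1) → ℝ)) = ⊤) :
    ∃ F, IsDomain (orbitMap x) F ∧ volume F ≠ 0 ∧ volume F ≠ ⊤ := by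
  have : IsZLattice ℝ (stabZ x) := ⟨hspan⟩
  have : Module.Free ℤ (stabZ x) := ZLattice.module_free ℝ _
  have : Module.Finite ℤ (stabZ x) := ZLattice.module_finite ℝ _
  let b := (Module.Free.chooseBasis ℤ (stabZ x)).ofZLatticeBasis ℝ (stabZ x)
  have hb : Submodule.span ℤ (Set.range b) = stabZ x :=
    (Module.Free.chooseBasis ℤ (stabZ x)).ofZLatticeBasis_span ℝ
  refine ⟨ZSpan.fundamentalDomain b, ⟨ZSpan.fundamentalDomain_measurableSet b, ?_, ?_, ?_⟩, ?_, ?_⟩
  · intro u _
    exact ⟨u, rfl⟩
  · intro u hu v hv huv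
    rw [orbitMap_eq_iff] at huv
    have h1 : -u + v ∈ Submodule.span ℤ (Set.range b) := by
      rw [hb, neg_add_eq_sub]; exact huv
    rw [← ZSpan.fract_eq_fract] at h1
    rwa [ZSpan.fract_eq_self.mpr hu, ZSpan.fract_eq_self.mpr hv] at h1
  · rintro _ ⟨u, rfl⟩
    refine ⟨ZSpan.fract b u, ZSpan.fract_mem_fundamentalDomain b u, ?_⟩
    rw [orbitMap_eq_iff, ZSpan.fract_apply, sub_sub_cancel]
    exact hb.le (ZSpan.floor b u).2
  · exact ZSpan.measure_fundamentalDomain_ne_zero b
  · exact (ZSpan.fundamentalDomain_isBounded b).measure_lt_top.ne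

/-- The total mass `vol(x A_n)` is positive and finite when the stabiliser is a lattice. -/
lemma pushVolume_univ (x : X n)
    (hspan : Submodule.span ℝ (stab x : Set (Fin (n - 1) → ℝ)) = ⊤) :
    pushVolume (orbitMap x) Set.univ ≠ 0 ∧ pushVolume (orbitMap x) Set.univ ≠ ⊤ := by
  obtain ⟨F, hF, h0, h1⟩ := exists_isDomain x hspan
  have h : ∃ F, IsDomain (orbitMap x) F := ⟨F, hF⟩
  have hc : Countable (stab x) := by
    have : IsZLattice ℝ (stabZ x) := ⟨hspan⟩
    have : Countable (stabZ x) := inferInstance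
    exact this
  have heq : volume h.choose = volume F :=
    (isAddFundamentalDomain_of_isDomain h.choose_spec).measure_eq
      (isAddFundamentalDomain_of_isDomain hF)
  have h2 : pushVolume (orbitMap x) Set.univ = volume F := by
    rw [pushVolume, dif_pos h, Measure.map_apply (measurable_orbitMap x) MeasurableSet.univ,
      Set.preimage_univ, Measure.restrict_apply_univ, heq]
  rw [h2]
  exact ⟨h0, h1⟩

end Vale.Agent.Torus
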