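import Vale.Agent.Torus.Shape

namespace Vale.Agent.Torus

open NumberField Matrix MeasureTheory

variable {n : ℕ}

lemma Datum.pos (d : Datum n) : 0 < n := by
  have h := Module.finrank_pos (R := ℚ) (M := d.K)
  have h2 := d.finrank_eq
  omega

/-- An order has a `ℤ`-basis of `n` elements. -/
lemma Datum.exists_basis (d : Datum n) : ∃ ω : Fin n → d.K,
    ∀ a, a ∈ d.O ↔ ∃ v : Fin n → ℤ, a = ∑ i, (v i : d.K) * ω i := by
  classical
  let P : Submodule ℤ d.K := AddSubgroup.toIntSubmodule d.O.toAddSubgroup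
  let Q : Submodule ℤ d.K := Subalgebra.toSubmodule (integralClosure ℤ d.K)
  have hPQ : P ≤ Q := fun x hx ↦ d.isOrder.1 x hx
  have hQfin : Module.Finite ℤ Q := by
    have : Module.Finite ℤ (𝓞 d.K) := inferInstance
    exact this
  have hPfin : Module.Finite ℤ P := by
    have : IsNoetherian ℤ Q := inferInstance
    have h1 : IsNoetherian ℤ P := isNoetherian_of_le hPQ
    infer_instance
  have hPfree : Module.Free ℤ P := inferInstance
  let b := Module.Free.chooseBasis ℤ P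
  have hli : LinearIndependent ℚ (fun i ↦ (b i : d.K)) := by
    rw [← LinearIndependent.iff_fractionRing ℤ ℚ]
    have := b.linearIndependent.map' P.subtype (Submodule.ker_subtype P)
    exact this
  have hspan : ⊤ ≤ Submodule.span ℚ (Set.range fun i ↦ (b i : d.K)) := by
    intro x _
    obtain ⟨k, hk, hkx⟩ := d.isOrder.2 x
    have hk' : (k : ℚ) ≠ 0 := by exact_mod_cast hk
    have hx : x = (k : ℚ)⁻¹ • ((k : d.K) * x) := by
      rw [Algebra.smul_def, ← mul_assoc]
      have : (algebraMap ℚ d.K) ((k : ℚ)⁻¹) * (k : d.K) = 1 := by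
        rw [map_inv₀, map_intCast]
        exact inv_mul_cancel₀ (by exact_mod_cast hk)
      rw [this, one_mul]
    rw [hx]
    apply Submodule.smul_mem
    have h1 := b.sum_repr (⟨(k : d.K) * x, hkx⟩ : P)
    have h2 : ∑ i, (b.repr (⟨(k : d.K) * x, hkx⟩ : P) i : ℤ) • (b i : d.K) = (k : d.K) * x := by
      have := congrArg P.subtype h1
      rw [map_sum] at this
      exact this
    rw [← h2]
    refine Submodule.sum_mem _ fun i _ ↦ ?_
    rw [← Int.cast_smul_eq_zsmul ℚ]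
    exact Submodule.smul_mem _ _ (Submodule.subset_span ⟨i, rfl⟩)
  let B := Module.Basis.mk hli hspan
  have hcard : Fintype.card (Module.Free.ChooseBasisIndex ℤ P) = Fintype.card (Fin n) := by
    rw [Fintype.card_fin]
    exact (Module.finrank_eq_card_basis B).symm.trans d.finrank_eq
  let e := Fintype.equivOfCardEq hcard
  refine ⟨fun i ↦ (b (e.symm i) : d.K), fun a ↦ ⟨fun ha ↦ ?_, ?_⟩⟩
  · refine ⟨fun i ↦ b.repr (⟨a, ha⟩ : P) (e.symm i), ?_⟩
    have h1 := b.sum_repr (⟨a, ha⟩ : P)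
    have h2 : ∑ i, (b.repr (⟨a, ha⟩ : P) i : ℤ) • (b i : d.K) = a := by
      have := congrArg P.subtype h1
      rw [map_sum] at this
      exact this
    rw [Equiv.sum_comp e.symm (fun i ↦ ((b.repr (⟨a, ha⟩ : P) i : ℤ) : d.K) * (b i : d.K))]
    refine h2.symm.trans (Finset.sum_congr rfl fun i _ ↦ ?_)
    rw [zsmul_eq_mul]
  · rintro ⟨v, rfl⟩
    refine d.O.sum_mem fun i _ ↦ d.O.mul_mem (intCast_mem _ _) ?_
    exact (b (e.symm i)).2

lemma Datum.det_ne_zero (d : Datum n) {ω : Fin n → d.K}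
    (hω : ∀ a, a ∈ d.O ↔ ∃ v : Fin n → ℤ, a = ∑ i, (v i : d.K) * ω i) :
    (Matrix.of fun i j ↦ d.σ j (ω i)).det ≠ 0 := by
  intro hdet
  rw [← Matrix.exists_mulVec_eq_zero_iff] at hdet
  obtain ⟨c, hc0, hc⟩ := hdet
  have h1 : ∀ i, ∑ j, c j * d.σ j (ω i) = 0 := by
    intro i
    have := congrFun hc i
    simp only [Matrix.mulVec, dotProduct, Matrix.of_apply, Pi.zero_apply] at this
    rw [← this]
    exact Finset.sum_congr rfl fun j _ ↦ mul_comm _ _
  have h2 : ∀ a ∈ d.O, ∑ j, c j * d.σ j a = 0 := by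
    intro a ha
    obtain ⟨v, rfl⟩ := (hω a).mp ha
    have : ∀ j, c j * d.σ j (∑ i, (v i : d.K) * ω i) = ∑ i, (v i : ℝ) * (c j * d.σ j (ω i)) := by
      intro j
      rw [map_sum, Finset.mul_sum]
      refine Finset.sum_congr rfl fun i _ ↦ ?_
      rw [map_mul, map_intCast]; ring
    simp only [this]
    rw [Finset.sum_comm]
    refine Finset.sum_eq_zero fun i _ ↦ ?_
    rw [← Finset.mul_sum, h1, mul_zero]
  have h3 : ∀ x : d.K, ∑ j, c j * d.σ j x = 0 := by
    intro x
    obtain ⟨k, hk, hkx⟩ := d.isOrder.2 x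
    have h4 := h2 _ hkx
    have h5 : ∑ j, c j * d.σ j ((k : d.K) * x) = (k : ℝ) * ∑ j, c j * d.σ j x := by
      rw [Finset.mul_sum]
      refine Finset.sum_congr rfl fun j _ ↦ ?_
      rw [map_mul, map_intCast]; ring
    rw [h5] at h4
    exact (mul_eq_zero.mp h4).resolve_left (by exact_mod_cast hk)
  have hli : LinearIndependent ℝ (fun j : Fin n ↦ ((d.σ j : d.K →* ℝ) : d.K → ℝ)) := by
    refine (linearIndependent_monoidHom d.K ℝ).comp (fun j ↦ (d.σ j : d.K →* ℝ)) ?_
    intro i j hij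
    apply d.σ_bij.injective
    ext x
    exact DFunLike.congr_fun hij x
  rw [Fintype.linearIndependent_iff] at hli
  apply hc0
  ext j
  refine hli c ?_ j
  ext x
  have := h3 x
  simpa using this

lemma isProperInvertible_self (d : Datum n) : IsProperInvertible d.O (d.O : Set d.K) := by
  have hfr : IsFractional d.O (d.O : Set d.K) := by
    refine ⟨1, fun _ ↦ 1, ?_⟩
    ext z
    constructor
    · intro hz
      exact ⟨fun _ ↦ z, fun _ ↦ hz, by simp⟩
    · rintro ⟨a, ha, rfl⟩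
      simpa using ha 0
  refine ⟨hfr, fun α ↦ ⟨fun h ↦ ?_, fun h x hx ↦ d.O.mul_mem h hx⟩, (d.O : Set d.K), hfr, ?_⟩
  · have := h 1 d.O.one_mem
    simpa using this
  · ext z
    constructor
    · rintro ⟨r, x, y, hxy, rfl⟩
      exact d.O.sum_mem fun i _ ↦ d.O.mul_mem (hxy i).1 (hxy i).2
    · intro hz
      exact ⟨1, fun _ ↦ z, fun _ ↦ 1, fun _ ↦ ⟨hz, d.O.one_mem⟩, by simp⟩

lemma packet_nonempty (d : Datum n) : (packet d.σ d.O).Nonempty := by
  classical
  obtain ⟨ω, hω⟩ := d.exists_basis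
  have hdet := d.det_ne_zero hω
  set A : Matrix (Fin n) (Fin n) ℝ := Matrix.of fun i j ↦ d.σ j (ω i) with hA
  have hn := d.pos
  let i₀ : Fin n := ⟨0, hn⟩
  obtain ⟨δ, hδ, hδA⟩ : ∃ δ : ℤ, δ * δ = 1 ∧ 0 < (δ : ℝ) * A.det := by
    rcases lt_or_gt_of_ne hdet with h | h
    · exact ⟨-1, by norm_num, by push_cast; linarith⟩
    · exact ⟨1, by norm_num, by push_cast; linarith⟩
  let δv : Fin n → ℤ := Function.update 1 i₀ δ
  have hδv : ∀ i, δv i * δv i = 1 := by
    intro i
    by_cases hi : i = i₀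
    · subst hi; simp [δv, hδ]
    · simp [δv, hi]
  set D : ℝ := (δ : ℝ) * A.det with hD
  let s : ℝ := D ^ (-(1 / (n : ℝ)))
  have hs : 0 < s := Real.rpow_pos_of_pos hδA _
  have hsn : s ^ n * D = 1 := by
    rw [← Real.rpow_natCast s n, ← Real.rpow_mul hδA.le]
    have : -(1 / (n : ℝ)) * n = -1 := by
      have : (n : ℝ) ≠ 0 := by positivity
      field_simp
    rw [this, Real.rpow_neg_one, inv_mul_cancel₀ hδA.ne']
  let g : G n := ⟨s • (Matrix.diagonal (fun i ↦ (δv i : ℝ)) * A), by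
    rw [Matrix.det_smul, Matrix.det_mul, Matrix.det_diagonal, Fintype.card_fin]
    have : ∏ i, (δv i : ℝ) = δ := by
      rw [Finset.prod_eq_single i₀]
      · simp [δv]
      · intro i _ hi
        simp [δv, hi]
      · simp
    rw [this]
    exact hsn⟩
  have hlat : (X.mk g).lattice = {y | ∃ α ∈ d.O, y = fun j ↦ s * d.σ j α * (1 : ℝ)} := by
    ext y
    rw [mem_lattice_mk]
    have key : ∀ v : Fin n → ℤ, (fun i ↦ (v i : ℝ)) ᵥ* g.1 =
        fun j ↦ s * d.σ j (∑ i, ((v i * δv i : ℤ) : d.K) * ω i) * (1 : ℝ) := by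
      intro v
      ext j
      change ((fun i ↦ (v i : ℝ)) ᵥ* (s • (Matrix.diagonal (fun i ↦ (δv i : ℝ)) * A))) j = _
      rw [Matrix.vecMul_smul, Pi.smul_apply, smul_eq_mul, mul_one]
      congr 1
      rw [map_sum]
      simp only [Matrix.vecMul, dotProduct, Matrix.diagonal_mul, hA, Matrix.of_apply]
      refine Finset.sum_congr rfl fun i _ ↦ ?_
      rw [map_mul, map_intCast]
      push_cast
      ring
    constructor
    · rintro ⟨v, rfl⟩
      exact ⟨_, (hω _).mpr ⟨fun i ↦ v i * δv i, rfl⟩, key v⟩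
    · rintro ⟨α, hα, rfl⟩
      obtain ⟨v, rfl⟩ := (hω α).mp hα
      refine ⟨fun i ↦ v i * δv i, ?_⟩
      rw [key]
      have : ∀ i, v i * δv i * δv i = v i := fun i ↦ by rw [mul_assoc, hδv, mul_one]
      simp only [this]
  exact ⟨orbit (X.mk g), d.O, isProperInvertible_self d, fun _ ↦ 1, fun _ ↦ Or.inl rfl, s, hs,
    X.mk g, hlat, rfl⟩

end Vale.Agent.Torus
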