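import Vale.Agent.Torus.Fields

namespace Vale.Agent.Torus

open NumberField IntermediateField Filter

/-- The datum attached to a totally real field and its maximal order. -/
lemma exists_maxDatum (K : Type) [Field K] [NumberField K] [IsTotallyReal K] {n : ℕ}
    (hn : Module.finrank ℚ K = n) :
    ∃ σ : Fin n → K →+* ℝ, Function.Bijective σ := by
  classical
  let f : (K →+* ℝ) → (K →+* ℂ) := fun ψ ↦ Complex.ofRealHom.comp ψ
  have hf : Function.Bijective f := by
    constructor
    · intro ψ ψ' h
      ext x
      have := RingHom.congr_fun h x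
      simpa [f] using this
    · intro φ
      refine ⟨(IsTotallyReal.complexEmbedding_isReal φ).embedding, ?_⟩
      ext x
      exact ComplexEmbedding.IsReal.coe_embedding_apply (IsTotallyReal.complexEmbedding_isReal φ) x
  let e := Equiv.ofBijective f hf
  have : Fintype (K →+* ℝ) := Fintype.ofEquiv _ e.symm
  have hcard : Fintype.card (K →+* ℝ) = n := by
    rw [Fintype.card_congr e, NumberField.Embeddings.card, hn]
  exact ⟨(Fintype.equivFinOfCardEq hcard).symm, Equiv.bijective _⟩

lemma integralClosure_full (K : Type) [Field K] [NumberField K] (x : K) :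
    ∃ k : ℤ, k ≠ 0 ∧ (k : K) * x ∈ (integralClosure ℤ K).toSubring := by
  have halg : IsAlgebraic ℤ x := by
    have h1 : IsAlgebraic ℚ x := Algebra.IsAlgebraic.isAlgebraic x
    exact (IsFractionRing.isAlgebraic_iff ℤ ℚ K).mpr h1
  obtain ⟨k, hk, hint⟩ := halg.exists_integral_multiple
  refine ⟨k, hk, ?_⟩
  rw [← zsmul_eq_mul]
  exact hint

/-- The datum attached to a totally real field and its maximal order. -/
noncomputable def maxDatum (K : Type) [Field K] [NumberField K] [IsTotallyReal K] {n : ℕ}
    (hn : Module.finrank ℚ K = n) : Datum n where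
  K := K
  finrank_eq := hn
  σ := (exists_maxDatum K hn).choose
  σ_bij := (exists_maxDatum K hn).choose_spec
  O := (integralClosure ℤ K).toSubring
  isOrder := ⟨fun _ hx ↦ hx, integralClosure_full K⟩

lemma absDisc_maxDatum (K : Type) [Field K] [NumberField K] [IsTotallyReal K] {n : ℕ}
    (hn : Module.finrank ℚ K = n) : absDisc (maxDatum K hn).O = (discr K).natAbs := by
  have : (integralClosure ℤ K).toSubring.toAddSubgroup.relIndex
      (integralClosure ℤ K).toSubring.toAddSubgroup = 1 := AddSubgroup.relIndex_self _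
  change (discr K).natAbs * ((integralClosure ℤ K).toSubring.toAddSubgroup.relIndex
      (integralClosure ℤ K).toSubring.toAddSubgroup) ^ 2 = _
  rw [this]; simp

section

variable (A : Type) [Field A] [CharZero A] [IsAlgClosed A] [Algebra.IsAlgebraic ℚ A]

/-- The real elements of `A`. -/
def realField : IntermediateField ℚ A :=
  (maximalRealSubfield A).toIntermediateField (fun x ↦ by
    intro φ
    simp)

lemma isTotallyReal_of_le {K : IntermediateField ℚ A} (h : K ≤ realField A) :
    IsTotallyReal K := by
  have h1 : IsTotallyReal K.toSubfield := by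
    rw [isTotallyReal_iff_le_maximalRealSubfield]
    exact h
  exact h1

lemma finite_le (K : IntermediateField ℚ A) [FiniteDimensional ℚ K] :
    {M : IntermediateField ℚ A | M ≤ K}.Finite := by
  have : Finite (IntermediateField ℚ K) :=
    Field.finite_intermediateField_of_exists_primitive_element ℚ K
      (Field.exists_primitive_element ℚ K)
  refine (Set.finite_range (fun M : IntermediateField ℚ K ↦ IntermediateField.lift M)).subset ?_
  intro M hM
  exact ⟨IntermediateField.restrict hM, IntermediateField.lift_restrict hM⟩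

end

instance : Algebra.IsAlgebraic ℚ (AlgebraicClosure ℚ) := AlgebraicClosure.isAlgebraic ℚ

theorem exists_family {n a b : ℕ} (ha : 2 ≤ a) (hb : 2 ≤ b) (hn : n = a * b) :
    ∃ d : ℕ → Datum n, (∀ i, IsMaximal (d i).O) ∧
      Tendsto (fun i ↦ absDisc (d i).O) atTop atTop ∧
      ∃ C : ℝ, ∀ i, ∃ x ∈ (d i).O, x ∉ Set.range (algebraMap ℚ (d i).K) ∧
        ∀ j, |(d i).σ j x| ≤ C := by
  classical
  let A := AlgebraicClosure ℚ
  have hn0 : 2 * n ≠ 0 := by rw [hn]; positivity
  have hinf := Nat.infinite_setOfPred_prime_modEq_one hn0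
  let q : ℕ → ℕ := fun i ↦ (hinf.natEmbedding _ i).1
  have hqinj : Function.Injective q := fun i j h ↦
    (hinf.natEmbedding _).injective (Subtype.ext h)
  have hqp : ∀ i, (q i).Prime := fun i ↦ (hinf.natEmbedding _ i).2.1
  have hqm : ∀ i, 2 * n ∣ q i - 1 := fun i ↦ by
    have := (hinf.natEmbedding _ i).2.2
    exact (Nat.modEq_iff_dvd' (hqp i).one_le).mp this.symm
  have hda : ∀ i, 2 * a ∣ q i - 1 := fun i ↦ by
    refine dvd_trans ?_ (hqm i); rw [hn]; exact ⟨b, by ring⟩
  have hdb : ∀ i, 2 * b ∣ q i - 1 := fun i ↦ by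
    refine dvd_trans ?_ (hqm i); rw [hn]; exact ⟨a, by ring⟩
  obtain ⟨F, hF, hFr, hFreal⟩ := exists_real_subfield A (hqp 0) (by omega : 0 < a) (hda 0)
  choose L hL hLr hLreal using fun i ↦ exists_real_subfield A (hqp (i + 1)) (by omega : 0 < b)
    (hdb (i + 1))
  have hFfin : FiniteDimensional ℚ F := Module.finite_of_finrank_pos (by rw [hFr]; omega)
  have hLfin : ∀ i, FiniteDimensional ℚ (L i) := fun i ↦
    Module.finite_of_finrank_pos (by rw [hLr]; omega)
  let K : ℕ → IntermediateField ℚ A := fun i ↦ F ⊔ L i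
  have hKfin : ∀ i, FiniteDimensional ℚ (K i) := fun i ↦ IntermediateField.finiteDimensional_sup _ _
  have hcop : ∀ i j, i ≠ j → (q i).Coprime (q j) := fun i j hij ↦
    (Nat.coprime_primes (hqp i) (hqp j)).mpr (fun h ↦ hij (hqinj h))
  have hKr : ∀ i, Module.finrank ℚ (K i) = n := by
    intro i
    have hdis : F.LinearDisjoint (L i) :=
      (linearDisjoint_cyc A (hqp 0).ne_zero (hqp (i + 1)).ne_zero
        (hcop _ _ (by omega))).of_le hF (hL i)
    rw [hdis.finrank_sup, hFr, hLr, hn]
  have hLdis : ∀ i j, L i = L j → i = j := by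
    intro i j hij
    by_contra hne
    have hdis : (L i).LinearDisjoint (L j) :=
      (linearDisjoint_cyc A (hqp (i + 1)).ne_zero (hqp (j + 1)).ne_zero
        (hcop _ _ (by omega))).of_le (hL i) (hL j)
    rw [← hij] at hdis
    have hbot := hdis.eq_bot_of_self
    have := hLr i
    rw [hbot, IntermediateField.finrank_bot] at this
    omega
  have hKnf : ∀ i, NumberField (K i) := fun i ↦ { to_finiteDimensional := hKfin i }
  have hKreal : ∀ i, IsTotallyReal (K i) := by
    intro i
    apply isTotallyReal_of_le A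
    apply sup_le
    · intro x hx φ; exact hFreal x hx φ
    · intro x hx φ; exact hLreal i x hx φ
  refine ⟨fun i ↦ maxDatum (K i) (hKr i), fun i x hx ↦ hx, ?_, ?_⟩
  · rw [tendsto_atTop]
    intro N
    let T : Set { M : IntermediateField ℚ A // FiniteDimensional ℚ M } :=
      {M | haveI : NumberField M := @NumberField.mk _ _ inferInstance M.prop
           |discr M| ≤ N}
    have hT : T.Finite := NumberField.finite_of_discr_bdd A N
    let f : ℕ → { M : IntermediateField ℚ A // FiniteDimensional ℚ M } := fun i ↦ ⟨K i, hKfin i⟩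
    have hpre : (f ⁻¹' T).Finite := by
      refine hT.preimage' ?_
      rintro ⟨M, hM⟩ -
      refine Set.Finite.subset ((finite_le A M).preimage (f := L) ?_) ?_
      · intro i _ j _ hij; exact hLdis i j hij
      · intro i hi
        have h1 : f i = ⟨M, hM⟩ := hi
        have h2 : K i = M := congrArg Subtype.val h1
        change L i ≤ M
        rw [← h2]
        exact le_sup_right
    have hev : ∀ᶠ i in cofinite, i ∉ f ⁻¹' T := hpre.compl_mem_cofinite
    rw [Nat.cofinite_eq_atTop] at hev
    filter_upwards [hev] with i hi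
    rw [absDisc_maxDatum]
    by_contra hlt
    apply hi
    change |discr (K i)| ≤ N
    have : (discr (K i)).natAbs < N := not_le.mp hlt
    rw [Int.abs_eq_natAbs]
    exact_mod_cast this.le
  · have hFne : F ≠ ⊥ := by
      intro h
      rw [h, IntermediateField.finrank_bot] at hFr
      omega
    obtain ⟨x, hxF, hxbot⟩ : ∃ x ∈ F, x ∉ (⊥ : IntermediateField ℚ A) := by
      by_contra! hcon
      exact hFne (le_bot_iff.mp hcon)
    have hxalg : IsAlgebraic ℤ x := by
      have h1 : IsAlgebraic ℚ x := Algebra.IsAlgebraic.isAlgebraic x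
      exact (IsFractionRing.isAlgebraic_iff ℤ ℚ A).mpr h1
    obtain ⟨k, hk, hint⟩ := hxalg.exists_integral_multiple
    set y : A := k • x with hy
    have hkA : (k : A) ≠ 0 := by exact_mod_cast hk
    have hyF : y ∈ F := by
      rw [hy, zsmul_eq_mul]
      exact F.mul_mem (intCast_mem F k) hxF
    have hybot : y ∉ (⊥ : IntermediateField ℚ A) := by
      intro h
      apply hxbot
      have : x = y / k := by
        rw [hy, zsmul_eq_mul, mul_div_cancel_left₀ _ hkA]
      rw [this]
      exact div_mem h (intCast_mem _ k)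
    let P : Polynomial ℤ := minpoly ℤ y
    have hP : P ≠ 0 := minpoly.ne_zero hint
    refine ⟨∑ r ∈ (P.map (algebraMap ℤ ℝ)).roots.toFinset, |r|, fun i ↦ ?_⟩
    have hyK : y ∈ K i := (le_sup_left : F ≤ K i) hyF
    refine ⟨(⟨y, hyK⟩ : K i), ?_, ?_, ?_⟩
    · change IsIntegral ℤ (⟨y, hyK⟩ : K i)
      exact (isIntegral_algebraMap_iff (A := K i) (B := A) (algebraMap (K i) A).injective).mp hint
    · rintro ⟨r, hr⟩
      apply hybot
      rw [IntermediateField.mem_bot]
      refine ⟨r, ?_⟩
      have hr' : algebraMap ℚ (K i) r = ⟨y, hyK⟩ := hr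
      have h5 : (algebraMap (K i) A) (algebraMap ℚ (K i) r) = y := by rw [hr']; rfl
      have h6 : (algebraMap (K i) A).comp (algebraMap ℚ (K i)) = algebraMap ℚ A :=
        Subsingleton.elim _ _
      rw [← h6]
      exact h5
    · intro j
      set ψ : K i →+* ℝ := (maxDatum (K i) (hKr i)).σ j with hψ
      have hroot : ψ (⟨y, hyK⟩ : K i) ∈ (P.map (algebraMap ℤ ℝ)).roots.toFinset := by
        rw [Multiset.mem_toFinset, Polynomial.mem_roots', Polynomial.IsRoot.def,
          Polynomial.eval_map]
        refine ⟨((minpoly.monic hint).map _).ne_zero, ?_⟩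
        have h0 : P.eval₂ (algebraMap ℤ A) y = 0 := minpoly.aeval ℤ y
        have h1 : P.eval₂ (algebraMap ℤ (K i)) (⟨y, hyK⟩ : K i) = 0 := by
          apply (algebraMap (K i) A).injective
          rw [Polynomial.hom_eval₂, map_zero]
          have h2 : (algebraMap (K i) A).comp (algebraMap ℤ (K i)) = algebraMap ℤ A :=
            RingHom.ext_int _ _
          rw [h2]
          exact h0
        have h3 := congrArg ψ h1
        rw [Polynomial.hom_eval₂, map_zero] at h3
        have h4 : ψ.comp (algebraMap ℤ (K i)) = algebraMap ℤ ℝ := RingHom.ext_int _ _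
        rw [h4] at h3
        exact h3
      exact Finset.single_le_sum (f := fun r : ℝ ↦ |r|) (fun r _ ↦ abs_nonneg r) hroot

end Vale.Agent.Torus
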