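import Vale.Agent.Torus.Pigeonhole

namespace Vale.Agent.Torus

open NumberField IntermediateField

section

variable (A : Type) [Field A] [CharZero A] [IsAlgClosed A] [Algebra.IsAlgebraic ℚ A]

lemma exists_primitive (q : ℕ) (hq : q ≠ 0) : ∃ ζ : A, IsPrimitiveRoot ζ q := by
  have : NeZero (q : A) := ⟨by exact_mod_cast hq⟩
  exact HasEnoughRootsOfUnity.exists_primitiveRoot A q

/-- A chosen primitive root of unity. -/
noncomputable def zt (q : ℕ) : A := if h : q ≠ 0 then (exists_primitive A q h).choose else 1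

lemma zt_spec {q : ℕ} (hq : q ≠ 0) : IsPrimitiveRoot (zt A q) q := by
  rw [zt, dif_pos hq]; exact (exists_primitive A q hq).choose_spec

/-- A cyclotomic subfield. -/
noncomputable def Cyc (q : ℕ) : IntermediateField ℚ A := ℚ⟮zt A q⟯

lemma cyc_isCyclotomic {q : ℕ} (hq : q ≠ 0) : IsCyclotomicExtension {q} ℚ (Cyc A q) := by
  have : NeZero q := ⟨hq⟩
  exact (zt_spec A hq).intermediateField_adjoin_isCyclotomicExtension ℚ

lemma finrank_cyc {q : ℕ} (hq : q ≠ 0) : Module.finrank ℚ (Cyc A q) = q.totient := by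
  have : NeZero q := ⟨hq⟩
  have := cyc_isCyclotomic A hq
  exact IsCyclotomicExtension.Rat.finrank q (Cyc A q)

lemma linearDisjoint_cyc {p q : ℕ} (hp : p ≠ 0) (hq : q ≠ 0) (hpq : p.Coprime q) :
    (Cyc A p).LinearDisjoint (Cyc A q) := by
  have : NeZero p := ⟨hp⟩
  have : NeZero q := ⟨hq⟩
  have h1 := cyc_isCyclotomic A hp
  have h2 := cyc_isCyclotomic A hq
  have := IsCyclotomicExtension.finite_of_singleton p ℚ (Cyc A p)
  have := IsCyclotomicExtension.finite_of_singleton q ℚ (Cyc A q)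
  apply IntermediateField.LinearDisjoint.of_finrank_sup
  have h3 : IsCyclotomicExtension {p.lcm q} ℚ (Cyc A p ⊔ Cyc A q : IntermediateField ℚ A) :=
    IntermediateField.isCyclotomicExtension_lcm_sup ℚ A p q (Cyc A p) (Cyc A q)
      (h₁ := h1) (h₂ := h2)
  rw [Nat.Coprime.lcm_eq_mul hpq] at h3
  have h4 := IsCyclotomicExtension.Rat.finrank (p * q) (Cyc A p ⊔ Cyc A q : IntermediateField ℚ A)
  rw [h4, finrank_cyc A hp, finrank_cyc A hq, Nat.totient_mul hpq]

/-- A real subfield of degree `k` of the `q`-th cyclotomic field, `q` prime, `2k ∣ q - 1`. -/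
lemma exists_real_subfield {q k : ℕ} (hq : q.Prime) (hk : 0 < k) (hdvd : 2 * k ∣ q - 1) :
    ∃ L : IntermediateField ℚ A, L ≤ Cyc A q ∧ Module.finrank ℚ L = k ∧
      ∀ x ∈ L, ∀ φ : A →+* ℂ, star (φ x) = φ x := by
  have hq0 := hq.ne_zero
  have hq2 : 2 < q := by
    have := Nat.le_of_dvd (by have := hq.two_le; omega) hdvd
    omega
  have : NeZero q := ⟨hq0⟩
  have : Fact q.Prime := ⟨hq⟩
  have hcyc := cyc_isCyclotomic A hq0
  have hfd := IsCyclotomicExtension.finite_of_singleton q ℚ (Cyc A q)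
  have hnf : NumberField (Cyc A q) := IsCyclotomicExtension.numberField {q} ℚ (Cyc A q)
  have hCM : IsCMField (Cyc A q) :=
    IsCyclotomicExtension.Rat.isCMField (Cyc A q) (S := {q}) ⟨q, rfl, hq2⟩
  have hgal : IsGalois ℚ (Cyc A q) := IsCyclotomicExtension.isGalois {q} ℚ _
  have hcycG : IsCyclic Gal(Cyc A q/ℚ) :=
    isCyclic_of_surjective (IsCyclotomicExtension.Rat.galEquivZMod q (Cyc A q)).symm
      (MulEquiv.surjective _)
  have hcard : Nat.card Gal(Cyc A q/ℚ) = q - 1 := by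
    rw [IsGalois.card_aut_eq_finrank, finrank_cyc A hq0, Nat.totient_prime hq]
  obtain ⟨g, hg⟩ := IsCyclic.exists_generator (α := Gal(Cyc A q/ℚ))
  have hordg : orderOf g = q - 1 := by
    rw [← hcard, orderOf_eq_card_of_forall_mem_zpowers hg]
  let τ : Gal(Cyc A q/ℚ) := (IsCMField.complexConj (Cyc A q)).restrictScalars ℚ
  have hτapp : ∀ x, τ x = IsCMField.complexConj (Cyc A q) x := fun x ↦ rfl
  have hτ2 : τ ^ 2 = 1 := by
    ext x
    rw [pow_two, AlgEquiv.mul_apply, hτapp, hτapp, IsCMField.complexConj_apply_apply]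
    rfl
  have hτ1 : τ ≠ 1 := by
    intro h
    apply IsCMField.complexConj_ne_one (Cyc A q)
    ext x
    have := DFunLike.congr_fun h x
    rw [hτapp] at this
    rw [this]; rfl
  obtain ⟨c, hc⟩ := hdvd
  have hcpos : 0 < c := by
    rcases Nat.eq_zero_or_pos c with h | h
    · rw [h] at hc; omega
    · exact h
  have hq1 : 0 < q - 1 := by omega
  have hgfin : IsOfFinOrder g := by
    rw [← orderOf_pos_iff, hordg]; exact hq1
  have hτmem : τ = g ^ (k * c) := by
    obtain ⟨j, hj⟩ := (hgfin.mem_powers_iff_mem_zpowers).mpr (hg τ)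
    simp only at hj
    have h1 : q - 1 ∣ 2 * j := by
      rw [← hordg, orderOf_dvd_iff_pow_eq_one, mul_comm, pow_mul, hj, hτ2]
    have h2 : ¬ (q - 1 ∣ j) := by
      intro h
      apply hτ1
      rw [← hj, ← orderOf_dvd_iff_pow_eq_one, hordg]
      exact h
    have h3 : k * c ∣ j := by
      rw [hc, mul_assoc] at h1
      exact Nat.dvd_of_mul_dvd_mul_left (by norm_num) h1
    obtain ⟨t, ht⟩ := h3
    have ht2 : ¬ (2 ∣ t) := by
      rintro ⟨s, rfl⟩
      apply h2
      rw [hc, ht]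
      exact ⟨s, by ring⟩
    have ht3 : ∃ s, t = 2 * s + 1 := ⟨t / 2, by omega⟩
    obtain ⟨s, rfl⟩ := ht3
    rw [← hj, ht]
    have : k * c * (2 * s + 1) = (q - 1) * s + k * c := by rw [hc]; ring
    rw [this, pow_add, pow_mul, ← hordg, pow_orderOf_eq_one, one_pow, one_mul]
  let H : Subgroup Gal(Cyc A q/ℚ) := Subgroup.zpowers (g ^ k)
  have hτH : τ ∈ H := by
    rw [hτmem, pow_mul]
    exact Subgroup.pow_mem _ (Subgroup.mem_zpowers _) _
  have hHcard : Nat.card H = 2 * c := by
    rw [Nat.card_zpowers, orderOf_pow, hordg, hc]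
    have : Nat.gcd (2 * k * c) k = k := Nat.gcd_eq_right ⟨2 * c, by ring⟩
    rw [this]
    exact Nat.div_eq_of_eq_mul_left hk (by ring)
  let L₀ : IntermediateField ℚ (Cyc A q) := IntermediateField.fixedField H
  have hL₀ : Module.finrank ℚ L₀ = k := by
    have h1 : Module.finrank L₀ (Cyc A q) = Nat.card H :=
      IntermediateField.finrank_fixedField_eq_card H
    have h2 := Module.finrank_mul_finrank ℚ L₀ (Cyc A q)
    rw [h1, hHcard, finrank_cyc A hq0, Nat.totient_prime hq, hc] at h2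
    have h3 : Module.finrank ℚ L₀ * (2 * c) = k * (2 * c) := by rw [h2]; ring
    exact Nat.eq_of_mul_eq_mul_right (by positivity) h3
  refine ⟨IntermediateField.lift L₀, IntermediateField.lift_le L₀, ?_, ?_⟩
  · rw [← hL₀]
    exact (IntermediateField.liftAlgEquiv L₀).toLinearEquiv.finrank_eq.symm
  · intro x hx φ
    have hx' := IntermediateField.lift_le L₀ hx
    have hmem : (⟨x, hx'⟩ : Cyc A q) ∈ L₀ := (IntermediateField.mem_lift (⟨x, hx'⟩ : Cyc A q)).mp hx
    have hfix : τ ⟨x, hx'⟩ = ⟨x, hx'⟩ := by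
      rw [IntermediateField.mem_fixedField_iff] at hmem
      exact hmem τ hτH
    have := IsCMField.complexEmbedding_complexConj (Cyc A q)
      (φ.comp (algebraMap (Cyc A q) A)) ⟨x, hx'⟩
    rw [← hτapp, hfix] at this
    exact this.symm

end

end Vale.Agent.Torus
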