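import Vale.Agent.Torus.Family

namespace Vale.Agent.Torus

open MeasureTheory Filter Topology

lemma bounded_necessary {n : ℕ} (d : ℕ → Datum n) (ν : Measure (X n))
    (hν : IsInvariantProbability ν) (h : ConvergesTo (fun i ↦ (d i).packetMeasure) ν) (C : ℝ) :
    ∀ᶠ i in atTop, SmallRational (d i).σ (d i).O C := by
  by_contra hcon
  rw [Filter.not_eventually] at hcon
  have hfreq : ∃ᶠ i in atTop, ∃ a ∈ (d i).O, a ∉ Set.range (algebraMap ℚ (d i).K) ∧
      ∀ j, |(d i).σ j a| ≤ C := by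
    refine hcon.mono fun i hi ↦ ?_
    unfold SmallRational at hi
    push Not at hi
    obtain ⟨a, ha, hb, hc⟩ := hi
    refine ⟨a, ha, ?_, hb⟩
    rintro ⟨q, hq⟩
    exact hc q (by rw [← hq]; simp)
  obtain ⟨U, -, -, -, hU⟩ := obstruction d C hfreq
  exact (hU ν hν).2 h

lemma exists_composite_family {n : ℕ} (hn4 : 4 ≤ n) (hn : ¬ n.Prime) :
    ∃ a b, 2 ≤ a ∧ 2 ≤ b ∧ n = a * b := by
  refine ⟨n.minFac, n / n.minFac, (Nat.minFac_prime (by omega)).two_le, ?_, ?_⟩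
  · have h1 := Nat.minFac_dvd n
    obtain ⟨c, hc⟩ := h1
    have hpos := Nat.minFac_pos n
    have : n / n.minFac = c := Nat.div_eq_of_eq_mul_right hpos hc
    rw [this]
    rcases c with _ | _ | c
    · omega
    · exfalso
      apply hn
      rw [hc]
      simpa using Nat.minFac_prime (by omega : n ≠ 1)
    · omega
  · exact (Nat.mul_div_cancel' (Nat.minFac_dvd n)).symm

lemma composite_disproof (n : ℕ) (h4 : 4 ≤ n) (hcomp : ¬ n.Prime) :
    ∃ d : ℕ → Datum n, (∀ i, IsMaximal (d i).O) ∧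
      Tendsto (fun i ↦ absDisc (d i).O) atTop atTop ∧
      ∃ U : Set (X n), IsOpen U ∧ U.Nonempty ∧ (∀ i, (d i).packetMeasure U = 0) ∧
        ∀ ν : Measure (X n), IsInvariantProbability ν →
          0 < ν U ∧ ∀ φ : ℕ → ℕ, StrictMono φ →
            ¬ ConvergesTo (fun i ↦ (d (φ i)).packetMeasure) ν := by
  obtain ⟨a, b, ha, hb, hab⟩ := exists_composite_family h4 hcomp
  obtain ⟨d, hmax, hdisc, C, hC⟩ := exists_family ha hb hab
  obtain ⟨D, ⟨j, k, hjk⟩, hfreq⟩ := exists_frequently_common d C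
    (Frequently.of_forall hC)
  obtain ⟨φ, hφ, hφD⟩ := Filter.extraction_of_frequently_atTop hfreq
  have hzero : ∀ i, (d (φ i)).packetMeasure (Z D)ᶜ = 0 := by
    intro i
    obtain ⟨x, hx, hxD⟩ := hφD i
    rw [← hxD]
    exact packetMeasure_compl_Z (d (φ i)) hx
  refine ⟨fun i ↦ d (φ i), fun i ↦ hmax _, hdisc.comp hφ.tendsto_atTop, (Z D)ᶜ,
    (isClosed_Z D).isOpen_compl, compl_Z_nonempty hjk, hzero, fun ν hν ↦ ⟨?_, fun ψ _ ↦ ?_⟩⟩
  · exact measure_pos_of_isOpen hν (isClosed_Z D).isOpen_compl (compl_Z_nonempty hjk)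
  · exact not_convergesTo hν (isClosed_Z D).isOpen_compl (compl_Z_nonempty hjk)
      (Frequently.of_forall fun i ↦ hzero (ψ i))

end Vale.Agent.Torus
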