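import Vale.Agent.Torus.Support

namespace Vale.Agent.Torus

open MeasureTheory Matrix Filter Topology Polynomial

/-- All complex embeddings come from the real embeddings in the ordering. -/
lemma Datum.exists_sigma_eq {n : ℕ} (d : Datum n) (φ : d.K →+* ℂ) :
    ∃ j, φ = Complex.ofRealHom.comp (d.σ j) := by
  classical
  have hinj : Function.Injective (fun j : Fin n ↦ Complex.ofRealHom.comp (d.σ j)) := by
    intro i j hij
    apply d.σ_bij.injective
    ext x
    have := RingHom.congr_fun hij x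
    simpa using this
  have hcard : Fintype.card (Fin n) = Fintype.card (d.K →+* ℂ) := by
    rw [NumberField.Embeddings.card, Fintype.card_fin, d.finrank_eq]
  have hbij := (Fintype.bijective_iff_injective_and_card _).mpr ⟨hinj, hcard⟩
  obtain ⟨j, hj⟩ := hbij.surjective φ
  exact ⟨j, hj.symm⟩

lemma Datum.norm_embedding_le {n : ℕ} (d : Datum n) {a : d.K} {C : ℝ}
    (h : ∀ j, |d.σ j a| ≤ C) (φ : d.K →+* ℂ) : ‖φ a‖ ≤ C := by
  obtain ⟨j, rfl⟩ := d.exists_sigma_eq φ
  simpa using h j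

/-- A finite set of reals containing all conjugates of integral elements with conjugates bounded
by `C`, in all totally real fields of degree `n`. -/
lemma exists_finite_conjugates (n : ℕ) (C : ℝ) : ∃ F : Set ℝ, F.Finite ∧
    ∀ (d : Datum n) (a : d.K), IsIntegral ℤ a → (∀ j, |d.σ j a| ≤ C) → ∀ j, d.σ j a ∈ F := by
  classical
  let B := Nat.ceil (max C 1 ^ n * (n.choose (n / 2)))
  refine ⟨_, bUnion_roots_finite (algebraMap ℤ ℝ) n (Set.finite_Icc (-B : ℤ) B), ?_⟩
  intro d a ha hC j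
  simp_rw [Set.mem_iUnion]
  have hmin := minpoly.isIntegrallyClosed_eq_field_fractions' ℚ ha
  refine ⟨minpoly ℤ a, ⟨?_, fun i ↦ ?_⟩, ?_⟩
  · rw [← (minpoly.monic ha).natDegree_map (algebraMap ℤ ℚ), ← hmin]
    exact (minpoly.natDegree_le a).trans d.finrank_eq.le
  · rw [Set.mem_Icc, ← abs_le, ← @Int.cast_le ℝ]
    have hb := NumberField.Embeddings.coeff_bdd_of_norm_le (A := ℂ) (d.norm_embedding_le hC) i
    rw [d.finrank_eq] at hb
    refine (Eq.trans_le ?_ hb).trans (Nat.le_ceil _)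
    rw [hmin, coeff_map, eq_intCast, Int.norm_cast_rat, Int.norm_eq_abs, Int.cast_abs]
  · rw [Finset.mem_coe, Multiset.mem_toFinset, mem_roots', IsRoot.def, eval_map]
    refine ⟨((minpoly.monic ha).map _).ne_zero, ?_⟩
    have h0 : (minpoly ℤ a).eval₂ (algebraMap ℤ d.K) a = 0 := minpoly.aeval ℤ a
    have h1 := congrArg (d.σ j) h0
    rw [hom_eval₂, map_zero] at h1
    have h2 : (d.σ j).comp (algebraMap ℤ d.K) = algebraMap ℤ ℝ := RingHom.ext_int _ _
    rw [h2] at h1
    exact h1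

/-- If all embeddings agree on `a` then `a` is rational. -/
lemma Datum.exists_ne {n : ℕ} (d : Datum n) {a : d.K}
    (ha : a ∉ Set.range (algebraMap ℚ d.K)) : ∃ i j, d.σ i a ≠ d.σ j a := by
  by_contra! hcon
  apply ha
  have hint : IsIntegral ℚ a := Algebra.IsIntegral.isIntegral a
  have hsep : (minpoly ℚ a).Separable := (minpoly.irreducible hint).separable
  have hcard : Fintype.card ((minpoly ℚ a).rootSet ℂ) = (minpoly ℚ a).natDegree :=
    card_rootSet_eq_natDegree hsep (IsAlgClosed.splits _)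
  have hle : Fintype.card ((minpoly ℚ a).rootSet ℂ) ≤ 1 := by
    rw [Fintype.card_le_one_iff_subsingleton]
    refine ⟨fun ⟨x, hx⟩ ⟨y, hy⟩ ↦ Subtype.ext ?_⟩
    rw [← NumberField.Embeddings.range_eval_eq_rootSet_minpoly] at hx hy
    obtain ⟨φ, hφ⟩ := hx
    obtain ⟨ψ, hψ⟩ := hy
    obtain ⟨i, rfl⟩ := d.exists_sigma_eq φ
    obtain ⟨j, rfl⟩ := d.exists_sigma_eq ψ
    change x = y
    rw [← hφ, ← hψ]
    simp [hcon i j]
  have h1 : (minpoly ℚ a).natDegree = 1 := by
    have := minpoly.natDegree_pos hint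
    omega
  rw [minpoly.natDegree_eq_one_iff] at h1
  exact h1

/-- Pigeonhole: bounded nonrational elements give a common nonconstant vector of conjugates. -/
lemma exists_frequently_common {n : ℕ} (d : ℕ → Datum n) (C : ℝ)
    (h : ∃ᶠ i in atTop, ∃ a ∈ (d i).O, a ∉ Set.range (algebraMap ℚ (d i).K) ∧
      ∀ j, |(d i).σ j a| ≤ C) :
    ∃ D : Fin n → ℝ, (∃ a b, D a ≠ D b) ∧
      ∃ᶠ i in atTop, ∃ a ∈ (d i).O, (fun j ↦ (d i).σ j a) = D := by
  obtain ⟨F, hF, hFd⟩ := exists_finite_conjugates n C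
  have hfin : (Set.pi Set.univ (fun _ : Fin n ↦ F)).Finite := Set.Finite.pi (fun _ ↦ hF)
  by_contra hcon
  push Not at hcon
  have hev : ∀ᶠ i in atTop, ∀ D ∈ (Set.pi Set.univ (fun _ : Fin n ↦ F)), (∃ a b, D a ≠ D b) →
      ∀ a ∈ (d i).O, (fun j ↦ (d i).σ j a) ≠ D := by
    rw [Filter.eventually_all_finite hfin]
    intro D _
    by_cases hD : ∃ a b, D a ≠ D b
    · have := hcon D hD
      filter_upwards [this] with i hi _ using hi
    · exact Eventually.of_forall fun i h ↦ absurd h hD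
  obtain ⟨i, ⟨a, haO, hanr, hab⟩, hi⟩ := (h.and_eventually hev).exists
  refine hi (fun j ↦ (d i).σ j a) ?_ ?_ a haO rfl
  · intro j _
    exact hFd (d i) a ((d i).isOrder.1 a haO) hab j
  · exact (d i).exists_ne hanr

/-- The general obstruction. -/
theorem obstruction {n : ℕ} (d : ℕ → Datum n) (C : ℝ)
    (h : ∃ᶠ i in atTop, ∃ a ∈ (d i).O, a ∉ Set.range (algebraMap ℚ (d i).K) ∧
      ∀ j, |(d i).σ j a| ≤ C) :
    ∃ U : Set (X n), IsOpen U ∧ U.Nonempty ∧
      (∃ᶠ i in atTop, (d i).packetMeasure U = 0) ∧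
      ∀ ν : Measure (X n), IsInvariantProbability ν →
        0 < ν U ∧ ¬ ConvergesTo (fun i ↦ (d i).packetMeasure) ν := by
  obtain ⟨D, ⟨a, b, hab⟩, hfreq⟩ := exists_frequently_common d C h
  have hzero : ∃ᶠ i in atTop, (d i).packetMeasure (Z D)ᶜ = 0 := by
    refine hfreq.mono ?_
    rintro i ⟨a, ha, rfl⟩
    exact packetMeasure_compl_Z (d i) ha
  refine ⟨(Z D)ᶜ, (isClosed_Z D).isOpen_compl, compl_Z_nonempty hab, hzero, fun ν hν ↦ ⟨?_, ?_⟩⟩
  · exact measure_pos_of_isOpen hν (isClosed_Z D).isOpen_compl (compl_Z_nonempty hab)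
  · exact not_convergesTo hν (isClosed_Z D).isOpen_compl (compl_Z_nonempty hab) hzero

end Vale.Agent.Torus
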