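import Vale.Agent.Torus.Units

namespace Vale.Agent.Torus

open NumberField NumberField.InfinitePlace NumberField.Units
  NumberField.Units.dirichletUnitTheorem MeasureTheory

variable {n : ℕ}

/-- `x` has lattice `t·σ(I)`. -/
def HasShape (d : Datum n) (x : X n) (I : Set d.K) (t : Fin n → ℝ) : Prop :=
  x.lattice = {y | ∃ α ∈ I, y = fun j ↦ t j * d.σ j α}

lemma HasShape.orbitMap {d : Datum n} {x : X n} {I : Set d.K} {t : Fin n → ℝ}
    (h : HasShape d x I t) (u : Fin (n - 1) → ℝ) :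
    HasShape d (orbitMap x u) I (fun j ↦ t j * Real.exp (full u j)) := by
  unfold HasShape at *
  rw [lattice_orbitMap, h]
  ext y
  constructor
  · rintro ⟨_, ⟨α, hα, rfl⟩, rfl⟩
    exact ⟨α, hα, by ext j; ring⟩
  · rintro ⟨α, hα, rfl⟩
    exact ⟨_, ⟨α, hα, rfl⟩, by ext j; ring⟩

/-- Multiplying by a unit of the multiplier ring which is totally positive. -/
lemma exists_stab_of_unit {d : Datum n} {x : X n} {I : Set d.K} {t : Fin n → ℝ}
    (h : HasShape d x I t) {η : d.K} (hη : ∀ j, 0 < d.σ j η)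
    (h1 : ∀ α ∈ I, η * α ∈ I) (h2 : ∀ α ∈ I, η⁻¹ * α ∈ I) :
    ∃ u ∈ stab x, ∀ i : Fin (n - 1), u i = Real.log (d.σ ⟨i, by omega⟩ η) := by
  have hη0 : η ≠ 0 := by
    rintro rfl
    rcases Nat.eq_zero_or_pos n with hn | hn
    · exact (Module.finrank_pos (R := ℚ) (M := d.K)).ne' (d.finrank_eq.trans hn)
    · have := hη ⟨0, hn⟩
      simp at this
  have hlat : x.lattice = (fun z j ↦ z j * d.σ j η) '' x.lattice := by
    conv_lhs => rw [show x.lattice = _ from h]
    rw [show x.lattice = _ from h]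
    ext y
    constructor
    · rintro ⟨α, hα, rfl⟩
      refine ⟨_, ⟨η⁻¹ * α, h2 α hα, rfl⟩, ?_⟩
      ext j
      have := (hη j).ne'
      simp only [map_mul, map_inv₀]
      field_simp
    · rintro ⟨_, ⟨α, hα, rfl⟩, rfl⟩
      exact ⟨η * α, h1 α hα, by ext j; simp only [map_mul]; ring⟩
  obtain ⟨u, hu, hlog⟩ := exists_orbitMap_eq hη hlat
  exact ⟨u, hu, hlog⟩

lemma pow_pos_sq {r : ℝ} (hr : r ≠ 0) : 0 < r ^ 2 := by positivity

/-- The stabiliser spans, by Dirichlet's unit theorem. -/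
lemma span_stab {d : Datum n} {x : X n} {I : Set d.K} {t : Fin n → ℝ}
    (h : HasShape d x I t) (hI : ∀ a ∈ d.O, ∀ α ∈ I, a * α ∈ I) :
    Submodule.span ℝ (stab x : Set (Fin (n - 1) → ℝ)) = ⊤ := by
  obtain ⟨k, hk, hkO⟩ := d.exists_unit_pow
  have hT : ∀ z ∈ (unitLattice d.K : Set (logSpace d.K)), d.T z ∈
      Submodule.span ℝ (stab x : Set (Fin (n - 1) → ℝ)) := by
    rintro _ ⟨ε', -, rfl⟩
    let ε : (𝓞 d.K)ˣ := ε'.toMul
    have hε0 : (ε : d.K) ≠ 0 := by
      have := (Units.ne_zero ε)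
      simpa using this
    have hcoe : ∀ m : ℕ, ((ε ^ m : (𝓞 d.K)ˣ) : d.K) = (ε : d.K) ^ m := by
      intro m; simp
    have hσ0 : ∀ j, d.σ j (ε : d.K) ≠ 0 := fun j ↦ by
      rw [Ne, map_eq_zero]; exact hε0
    obtain ⟨u, hu, hlog⟩ := exists_stab_of_unit (η := (ε : d.K) ^ (k * 2)) h
      (fun j ↦ by
        rw [map_pow, pow_mul]
        exact pow_pos_sq (pow_ne_zero k (hσ0 j)))
      (fun α hα ↦ by
        refine hI _ ?_ α hα
        rw [pow_mul, ← hcoe]
        exact d.O.pow_mem (hkO ε) 2)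
      (fun α hα ↦ by
        refine hI _ ?_ α hα
        have h3 := hkO ε⁻¹
        have h4 : ((ε⁻¹ ^ k : (𝓞 d.K)ˣ) : d.K) = ((ε : d.K) ^ k)⁻¹ := by
          apply eq_inv_of_mul_eq_one_left
          rw [← hcoe, ← map_mul]
          simp
        rw [pow_mul, ← inv_pow, ← h4]
        exact d.O.pow_mem h3 2)
    have h5 : d.T (logEmbedding d.K (Additive.ofMul ε)) = ((k * 2 : ℕ) : ℝ)⁻¹ • u := by
      ext i
      rw [d.T_logEmbedding, Pi.smul_apply, hlog i, map_pow, Real.log_pow, Real.log_abs,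
        smul_eq_mul, inv_mul_cancel_left₀]
      positivity
    change d.T (logEmbedding d.K (Additive.ofMul ε)) ∈ _
    rw [h5]
    exact Submodule.smul_mem _ _ (Submodule.subset_span hu)
  have h6 : Submodule.map d.T (Submodule.span ℝ (unitLattice d.K : Set (logSpace d.K))) = ⊤ := by
    rw [unitLattice_span_eq_top, Submodule.map_top, LinearMap.range_eq_top]
    exact d.T_surjective
  rw [eq_top_iff, ← h6, Submodule.map_span, Submodule.span_le]
  rintro _ ⟨z, hz, rfl⟩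
  exact hT z hz

end Vale.Agent.Torus
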