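import Vale.Agent.Torus.Support

namespace Vale.Agent.Torus

open MeasureTheory Matrix Filter Topology

variable {n : ℕ}

lemma row_mem_lattice (g : G n) (i : Fin n) : g.1 i ∈ (X.mk g).lattice := by
  rw [mem_lattice_mk]
  refine ⟨Pi.single i 1, ?_⟩
  have : (fun k ↦ ((Pi.single i (1 : ℤ) : Fin n → ℤ) k : ℝ)) = Pi.single i (1:ℝ) := by
    ext k
    by_cases hk : k = i
    · subst hk; simp
    · simp [hk]
  rw [this, Matrix.single_one_vecMul]
  rfl

lemma exists_int_matrix {A : Matrix (Fin n) (Fin n) ℝ} {g : G n}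
    (h : ∀ i, A i ∈ (X.mk g).lattice) :
    ∃ M : Matrix (Fin n) (Fin n) ℤ, A = M.map (Int.cast : ℤ → ℝ) * g.1 := by
  choose v hv using fun i ↦ mem_lattice_mk.mp (h i)
  refine ⟨Matrix.of v, ?_⟩
  ext i j
  rw [hv i]
  simp [Matrix.mul_apply, Matrix.vecMul, dotProduct]

lemma det_map_cast (M : Matrix (Fin n) (Fin n) ℤ) :
    (M.map (Int.cast : ℤ → ℝ)).det = (M.det : ℝ) :=
  (Int.cast_det M).symm

/-- A point of `X_n` is determined by its lattice. -/
lemma eq_of_lattice_subset {x y : X n} (h : y.lattice ⊆ x.lattice) : y = x := by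
  obtain ⟨g, rfl⟩ := X.mk_surjective x
  obtain ⟨g', rfl⟩ := X.mk_surjective y
  obtain ⟨M, hM⟩ := exists_int_matrix (A := g'.1) (g := g) fun i ↦ h (row_mem_lattice g' i)
  have hdet : M.det = 1 := by
    have h1 := congrArg Matrix.det hM
    rw [Matrix.det_mul, det_map_cast, g.2, g'.2, mul_one] at h1
    exact_mod_cast h1.symm
  let γ₀ : Matrix.SpecialLinearGroup (Fin n) ℤ := ⟨M, hdet⟩
  let γ : Γ n := ⟨Matrix.SpecialLinearGroup.map (Int.castRingHom ℝ) γ₀, ⟨γ₀, rfl⟩⟩
  have h2 : g' = (γ : G n) * g := by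
    apply Subtype.ext
    rw [hM]
    rfl
  rw [h2, X.mk_gamma_mul]

/-- The full vector of exponents. -/
noncomputable def full (u : Fin (n - 1) → ℝ) (j : Fin n) : ℝ :=
  if h : (j : ℕ) < n - 1 then u ⟨j, h⟩ else -∑ i, u i

lemma diagA_val (u : Fin (n - 1) → ℝ) :
    (diagA (n := n) u).1 = Matrix.diagonal (fun j ↦ Real.exp (full u j)) := by
  change Matrix.diagonal _ = _
  congr 1
  ext j
  unfold full
  split_ifs <;> rfl

lemma full_of_sum_eq_zero {t : Fin n → ℝ} (ht : ∑ j, t j = 0) :
    full (fun i : Fin (n - 1) ↦ t ⟨i, by omega⟩) = t := by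
  rcases n with _ | m
  · ext j; exact j.elim0
  · ext j
    unfold full
    split_ifs with h
    · rfl
    · have hj : j = Fin.last m := by
        ext; simp; omega
      subst hj
      rw [Fin.sum_univ_castSucc] at ht
      have : (∑ i : Fin (m + 1 - 1), t ⟨i, by omega⟩) = ∑ i : Fin m, t (Fin.castSucc i) := rfl
      rw [this]
      linarith

lemma exists_u {t : Fin n → ℝ} (ht : ∀ j, 0 < t j) (hprod : ∏ j, t j = 1) :
    ∃ u : Fin (n - 1) → ℝ, (∀ j, Real.exp (full u j) = t j) ∧
      ∀ i : Fin (n - 1), u i = Real.log (t ⟨i, by omega⟩) := by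
  have h0 : ∑ j, Real.log (t j) = 0 := by
    rw [← Real.log_prod (fun j _ ↦ (ht j).ne'), hprod, Real.log_one]
  refine ⟨fun i ↦ Real.log (t ⟨i, by omega⟩), fun j ↦ ?_, fun i ↦ rfl⟩
  have := congrFun (full_of_sum_eq_zero h0) j
  rw [this, Real.exp_log (ht j)]

lemma lattice_orbitMap (x : X n) (u : Fin (n - 1) → ℝ) :
    (orbitMap x u).lattice = (fun y j ↦ y j * Real.exp (full u j)) '' x.lattice := by
  unfold orbitMap
  rw [lattice_act, diagA_val]
  congr 1
  ext y j
  simp [Matrix.vecMul_diagonal]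

/-- Two points whose lattices differ by a positive diagonal matrix lie on the same orbit. -/
lemma exists_orbitMap_eq {x y : X n} {t : Fin n → ℝ} (ht : ∀ j, 0 < t j)
    (h : y.lattice = (fun z j ↦ z j * t j) '' x.lattice) :
    ∃ u, orbitMap x u = y ∧ ∀ i : Fin (n - 1), u i = Real.log (t ⟨i, by omega⟩) := by
  obtain ⟨g, rfl⟩ := X.mk_surjective x
  obtain ⟨g', rfl⟩ := X.mk_surjective y
  have hprod : ∏ j, t j = 1 := by
    have h1 : ∀ i, (g.1 * Matrix.diagonal t) i ∈ (X.mk g').lattice := by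
      intro i
      rw [h]
      refine ⟨g.1 i, row_mem_lattice g i, ?_⟩
      ext j
      simp [Matrix.mul_diagonal]
    obtain ⟨M, hM⟩ := exists_int_matrix h1
    have h2 : ∀ i, (g'.1 * Matrix.diagonal (fun j ↦ (t j)⁻¹)) i ∈ (X.mk g).lattice := by
      intro i
      have h3 := row_mem_lattice g' i
      rw [h] at h3
      obtain ⟨z, hz, hz2⟩ := h3
      convert hz using 1
      ext j
      rw [Matrix.mul_diagonal, ← hz2]
      simp [mul_assoc, mul_inv_cancel₀ (ht j).ne']
    obtain ⟨M', hM'⟩ := exists_int_matrix h2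
    have d1 := congrArg Matrix.det hM
    have d2 := congrArg Matrix.det hM'
    rw [Matrix.det_mul, Matrix.det_mul, det_map_cast, g.2, g'.2, Matrix.det_diagonal, one_mul,
      mul_one] at d1 d2
    have hpos : (0:ℝ) < ∏ j, t j := Finset.prod_pos fun j _ ↦ ht j
    have hmul : (M.det : ℝ) * (M'.det : ℝ) = 1 := by
      rw [← d1, ← d2, ← Finset.prod_mul_distrib]
      exact Finset.prod_eq_one fun j _ ↦ mul_inv_cancel₀ (ht j).ne'
    have hmul' : M.det * M'.det = 1 := by exact_mod_cast hmul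
    have hM0 : 0 < M.det := by
      rw [d1] at hpos
      exact_mod_cast hpos
    have : M.det = 1 := by
      rcases Int.eq_one_or_neg_one_of_mul_eq_one hmul' with h | h
      · exact h
      · omega
    rw [d1, this]
    simp
  obtain ⟨u, hu, hlog⟩ := exists_u ht hprod
  refine ⟨u, eq_of_lattice_subset ?_, hlog⟩
  rw [lattice_orbitMap, h]
  apply le_of_eq
  congr 1
  ext z j
  rw [hu]

lemma orbitMap_zero (x : X n) : orbitMap x 0 = x := by
  unfold orbitMap
  rw [diagA_zero, X.act_one]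

lemma orbitMap_add (x : X n) (u v : Fin (n - 1) → ℝ) :
    orbitMap x (u + v) = X.act (diagA v) (orbitMap x u) := by
  unfold orbitMap
  rw [X.act_act, diagA_add]

lemma orbitMap_add' (x : X n) (u v : Fin (n - 1) → ℝ) :
    orbitMap x (u + v) = orbitMap (orbitMap x u) v := orbitMap_add x u v

/-- The stabiliser of `x` in `ℝ^{n-1}`. -/
noncomputable def stab (x : X n) : AddSubgroup (Fin (n - 1) → ℝ) where
  carrier := {v | orbitMap x v = x}
  zero_mem' := orbitMap_zero x
  add_mem' := by
    intro a b ha hb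
    change orbitMap x (a + b) = x
    rw [orbitMap_add', show orbitMap x a = x from ha, show orbitMap x b = x from hb]
  neg_mem' := by
    intro a ha
    change orbitMap x (-a) = x
    have h1 := orbitMap_add' x a (-a)
    rw [add_neg_cancel, orbitMap_zero, show orbitMap x a = x from ha] at h1
    exact h1.symm

lemma mem_stab {x : X n} {v : Fin (n - 1) → ℝ} : v ∈ stab x ↔ orbitMap x v = x := Iff.rfl

lemma orbitMap_eq_iff {x : X n} {u v : Fin (n - 1) → ℝ} :
    orbitMap x u = orbitMap x v ↔ v - u ∈ stab x := by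
  rw [mem_stab]
  constructor
  · intro h
    have h1 := orbitMap_add' x v (-u)
    have h2 := orbitMap_add' x u (-u)
    rw [add_neg_cancel, orbitMap_zero] at h2
    rw [← sub_eq_add_neg] at h1
    rw [h1, ← h, ← h2]
  · intro h
    have h1 := orbitMap_add' x (v - u) u
    rw [sub_add_cancel, h] at h1
    exact h1.symm

lemma stab_orbitMap (x : X n) (u : Fin (n - 1) → ℝ) : stab (orbitMap x u) = stab x := by
  ext v
  rw [mem_stab, ← orbitMap_add', eq_comm, orbitMap_eq_iff, add_sub_cancel_left]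

lemma eventually_stab (x : X n) : ∀ᶠ v in 𝓝 (0 : Fin (n - 1) → ℝ), v ∈ stab x → v = 0 := by
  obtain ⟨g, rfl⟩ := X.mk_surjective x
  have hcont : Continuous (fun v : Fin (n - 1) → ℝ ↦ g.1 * (diagA (n := n) v).1 * (g⁻¹).1) := by
    have h1 : Continuous (fun v : Fin (n - 1) → ℝ ↦ (diagA (n := n) v).1) :=
      continuous_subtype_val.comp continuous_diagA
    exact (continuous_const.matrix_mul h1).matrix_mul continuous_const
  have hev : ∀ i j, ∀ᶠ v in 𝓝 (0 : Fin (n - 1) → ℝ),
      |(g.1 * (diagA (n := n) v).1 * (g⁻¹).1) i j - (1 : Matrix (Fin n) (Fin n) ℝ) i j| < 1 := by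
    intro i j
    have hc : Continuous (fun v : Fin (n - 1) → ℝ ↦
        |(g.1 * (diagA (n := n) v).1 * (g⁻¹).1) i j - (1 : Matrix (Fin n) (Fin n) ℝ) i j|) :=
      ((hcont.matrix_elem i j).sub continuous_const).abs
    have h0 : |(g.1 * (diagA (n := n) (0 : Fin (n - 1) → ℝ)).1 * (g⁻¹).1) i j -
        (1 : Matrix (Fin n) (Fin n) ℝ) i j| < 1 := by
      rw [diagA_zero]
      have : g.1 * (1 : G n).1 * (g⁻¹).1 = 1 := by
        change g.1 * 1 * (g⁻¹).1 = 1
        rw [Matrix.mul_one, coe_mul_inv]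
      rw [this]
      simp
    exact hc.continuousAt.eventually (isOpen_Iio.mem_nhds h0)
  have hall : ∀ᶠ v in 𝓝 (0 : Fin (n - 1) → ℝ), ∀ i j,
      |(g.1 * (diagA (n := n) v).1 * (g⁻¹).1) i j - (1 : Matrix (Fin n) (Fin n) ℝ) i j| < 1 := by
    rw [eventually_all]
    intro i
    rw [eventually_all]
    exact hev i
  filter_upwards [hall] with v hv hvs
  have h1 : ∀ i, (g.1 * (diagA (n := n) v).1) i ∈ (X.mk g).lattice := by
    intro i
    have h2 : (orbitMap (X.mk g) v).lattice = (X.mk g).lattice := by rw [mem_stab.mp hvs]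
    rw [← h2, show orbitMap (X.mk g) v = X.mk (g * diagA v) from X.act_mk _ _]
    exact row_mem_lattice (g * diagA v) i
  obtain ⟨M, hM⟩ := exists_int_matrix h1
  have h3 : g.1 * (diagA (n := n) v).1 * (g⁻¹).1 = M.map (Int.cast : ℤ → ℝ) := by
    rw [hM, Matrix.mul_assoc, coe_mul_inv, Matrix.mul_one]
  have h4 : M = 1 := by
    ext i j
    have h5 := hv i j
    rw [h3, Matrix.map_apply] at h5
    have h6 : |((M i j - (1 : Matrix (Fin n) (Fin n) ℤ) i j : ℤ) : ℝ)| < 1 := by
      convert h5 using 2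
      push_cast
      congr 1
      by_cases hij : i = j
      · subst hij; simp
      · simp [hij]
    have h7 : |M i j - (1 : Matrix (Fin n) (Fin n) ℤ) i j| < 1 := by exact_mod_cast h6
    have := Int.abs_lt_one_iff.mp h7
    omega
  have h8 : g.1 * (diagA (n := n) v).1 = g.1 := by
    rw [hM, h4]
    have : (1 : Matrix (Fin n) (Fin n) ℤ).map (Int.cast : ℤ → ℝ) = 1 := by
      ext i j
      by_cases hij : i = j
      · subst hij; simp
      · simp [hij]
    rw [this, Matrix.one_mul]
  have h9 : (diagA (n := n) v).1 = 1 := by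
    calc (diagA (n := n) v).1 = (g⁻¹).1 * (g.1 * (diagA (n := n) v).1) := by
          rw [← Matrix.mul_assoc, inv_coe_mul, Matrix.one_mul]
      _ = 1 := by rw [h8, inv_coe_mul]
  ext i
  have h10 := congrFun (congrFun h9 ⟨i, by omega⟩) ⟨i, by omega⟩
  rw [diagA_val, Matrix.diagonal_apply_eq, Matrix.one_apply_eq, Real.exp_eq_one_iff] at h10
  unfold full at h10
  rw [dif_pos i.2] at h10
  exact h10

instance stab_discrete (x : X n) : DiscreteTopology (stab x) := by
  rw [discreteTopology_iff_isOpen_singleton_zero]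
  have hev := eventually_stab x
  rw [eventually_nhds_iff] at hev
  obtain ⟨t, ht, hto, h0⟩ := hev
  have : ({0} : Set (stab x)) = Subtype.val ⁻¹' t := by
    ext ⟨v, hv⟩
    simp only [Set.mem_singleton_iff, Set.mem_preimage]
    constructor
    · intro h
      have hv0 : v = 0 := congrArg Subtype.val h
      rw [hv0]; exact h0
    · intro h
      exact Subtype.ext (ht v h hv)
  rw [this]
  exact hto.preimage continuous_subtype_val

end Vale.Agent.Torus
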