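import Vale.Agent.Torus.Topo

namespace Vale.Agent.Torus

open MeasureTheory Matrix Filter Topology

variable {n : ℕ}

/-- Lattices stable under the diagonal matrix with entries `D`. -/
def Z (D : Fin n → ℝ) : Set (X n) :=
  {x | ∀ y ∈ x.lattice, (fun j ↦ y j * D j) ∈ x.lattice}

lemma mul_diag_eq (y D : Fin n → ℝ) : (fun j ↦ y j * D j) = y ᵥ* Matrix.diagonal D := by
  ext j
  simp [Matrix.vecMul_diagonal]

lemma inv_coe_mul (g : G n) : (g⁻¹).1 * g.1 = 1 :=
  congrArg Subtype.val (inv_mul_cancel g)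

lemma coe_mul_inv (g : G n) : g.1 * (g⁻¹).1 = 1 :=
  congrArg Subtype.val (mul_inv_cancel g)

lemma mk_mem_Z {D : Fin n → ℝ} {g : G n} :
    X.mk g ∈ Z D ↔ ∀ i j, (g.1 * Matrix.diagonal D * (g⁻¹).1) i j ∈ Set.range ((↑) : ℤ → ℝ) := by
  constructor
  · intro h i j
    have h1 := h (fun j ↦ g.1 i j) (by
      rw [mem_lattice_mk]
      refine ⟨Pi.single i 1, ?_⟩
      have : (fun k ↦ ((Pi.single i (1 : ℤ) : Fin n → ℤ) k : ℝ)) = Pi.single i (1:ℝ) := by
        ext k
        by_cases hk : k = i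
        · subst hk; simp
        · simp [hk]
      rw [this, Matrix.single_one_vecMul]
      rfl)
    rw [mem_lattice_mk] at h1
    obtain ⟨v, hv⟩ := h1
    refine ⟨v j, ?_⟩
    have h2 : (fun k ↦ (g.1 * Matrix.diagonal D) i k) = (fun k ↦ (v k : ℝ)) ᵥ* g.1 := by
      rw [← hv]
      ext k
      simp [Matrix.mul_diagonal]
    have h3 : (g.1 * Matrix.diagonal D * (g⁻¹).1) i j =
        ((fun k ↦ (g.1 * Matrix.diagonal D) i k) ᵥ* (g⁻¹).1) j := by
      simp [Matrix.mul_apply, Matrix.vecMul, dotProduct]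
    rw [h3, h2, Matrix.vecMul_vecMul, coe_mul_inv, Matrix.vecMul_one]
  · intro h y hy
    rw [mem_lattice_mk] at hy ⊢
    obtain ⟨v, rfl⟩ := hy
    choose w hw using h
    refine ⟨fun j ↦ ∑ i, v i * w i j, ?_⟩
    rw [mul_diag_eq, Matrix.vecMul_vecMul]
    have h1 : (fun j ↦ ((∑ i, v i * w i j : ℤ) : ℝ)) =
        (fun i ↦ (v i : ℝ)) ᵥ* (g.1 * Matrix.diagonal D * (g⁻¹).1) := by
      ext j
      simp only [Matrix.vecMul, dotProduct]
      push_cast
      refine Finset.sum_congr rfl fun i _ ↦ ?_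
      rw [hw]
    rw [h1, Matrix.vecMul_vecMul, Matrix.mul_assoc _ (g⁻¹).1, inv_coe_mul, Matrix.mul_one]

lemma isClosed_Z (D : Fin n → ℝ) : IsClosed (Z D) := by
  rw [← isOpenQuotientMap_mk.isQuotientMap.isClosed_preimage]
  have : X.mk ⁻¹' (Z D) = ⋂ i, ⋂ j, {g : G n |
      (g.1 * Matrix.diagonal D * (g⁻¹).1) i j ∈ Set.range ((↑) : ℤ → ℝ)} := by
    ext g
    simp only [Set.mem_preimage, mk_mem_Z, Set.mem_iInter]
    rfl
  rw [this]
  refine isClosed_iInter fun i ↦ isClosed_iInter fun j ↦ ?_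
  refine (Int.isClosedEmbedding_coe_real.isClosed_range).preimage ?_
  have h1 : Continuous (fun g : G n ↦ g.1) := continuous_subtype_val
  have h2 : Continuous (fun g : G n ↦ (g⁻¹).1) := continuous_subtype_val.comp continuous_inv
  exact ((h1.matrix_mul continuous_const).matrix_mul h2).matrix_elem i j

/-- If `D` is not constant then some lattice is not stable under `D`. -/
lemma compl_Z_nonempty {D : Fin n → ℝ} {a b : Fin n} (hab : D a ≠ D b) : ((Z D)ᶜ).Nonempty := by
  have hne : a ≠ b := fun h ↦ hab (by rw [h])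
  set t : ℝ := (1 / 2) / (D b - D a) with ht
  have hsub : D b - D a ≠ 0 := sub_ne_zero.mpr (Ne.symm hab)
  let g : G n := ⟨Matrix.transvection a b t, Matrix.det_transvection_of_ne a b hne t⟩
  have hginv : (g⁻¹).1 = Matrix.transvection a b (-t) := by
    have h1 : g.1 * Matrix.transvection a b (-t) = 1 := by
      change Matrix.transvection a b t * Matrix.transvection a b (-t) = 1
      rw [Matrix.transvection_mul_transvection_same a b hne, add_neg_cancel,
        Matrix.transvection_zero]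
    calc (g⁻¹).1 = (g⁻¹).1 * (g.1 * Matrix.transvection a b (-t)) := by rw [h1, Matrix.mul_one]
      _ = _ := by rw [← Matrix.mul_assoc, inv_coe_mul, Matrix.one_mul]
  refine ⟨X.mk g, fun hmem ↦ ?_⟩
  rw [mk_mem_Z] at hmem
  obtain ⟨k, hk⟩ := hmem a b
  rw [hginv] at hk
  have hval : (g.1 * Matrix.diagonal D * Matrix.transvection a b (-t)) a b =
      t * (D b - D a) := by
    change (Matrix.transvection a b t * Matrix.diagonal D * Matrix.transvection a b (-t)) a b = _
    rw [Matrix.mul_apply]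
    simp only [Matrix.mul_diagonal]
    rw [Finset.sum_eq_add (a := a) (b := b) hne]
    · simp [Matrix.transvection, Matrix.single, hne, hne.symm]
      ring
    · intro c _ hc
      simp [Matrix.transvection, Matrix.single, hc.1.symm, hc.2, hc.2.symm]
    · simp
    · simp
  rw [hval, ht, div_mul_cancel₀ _ hsub] at hk
  have h2 : (2 * k : ℤ) = 1 := by
    have : (2 : ℝ) * k = 1 := by rw [hk]; norm_num
    exact_mod_cast this
  omega

lemma lattice_act {n : ℕ} (h : G n) (x : X n) :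
    (X.act h x).lattice = (fun y ↦ y ᵥ* h.1) '' x.lattice := by
  obtain ⟨g, rfl⟩ := X.mk_surjective x
  ext y
  rw [X.act_mk, mem_lattice_mk, Set.mem_image]
  constructor
  · rintro ⟨v, rfl⟩
    refine ⟨(fun i ↦ (v i : ℝ)) ᵥ* g.1, mem_lattice_mk.mpr ⟨v, rfl⟩, ?_⟩
    rw [Matrix.vecMul_vecMul]; rfl
  · rintro ⟨z, hz, rfl⟩
    obtain ⟨v, rfl⟩ := mem_lattice_mk.mp hz
    refine ⟨v, ?_⟩
    rw [Matrix.vecMul_vecMul]; rfl

lemma act_diagA_mem_Z {D : Fin n → ℝ} {x : X n} (hx : x ∈ Z D)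
    (u : Fin (n - 1) → ℝ) : X.act (diagA u) x ∈ Z D := by
  intro y hy
  rw [lattice_act] at hy ⊢
  obtain ⟨z, hz, rfl⟩ := hy
  refine ⟨fun j ↦ z j * D j, hx z hz, ?_⟩
  ext j
  simp only [diagA, Matrix.vecMul_diagonal]
  ring

lemma continuous_diagA : Continuous (fun u : Fin (n - 1) → ℝ ↦ diagA (n := n) u) := by
  apply Continuous.subtype_mk
  apply Continuous.matrix_diagonal
  apply continuous_pi
  intro j
  split_ifs with h
  · fun_prop
  · fun_prop

lemma measurable_orbitMap (x : X n) : Measurable (orbitMap x) :=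
  ((continuous_act_left x).comp continuous_diagA).measurable

lemma pushVolume_compl_Z {D : Fin n → ℝ} {x : X n} (hx : x ∈ Z D) :
    pushVolume (orbitMap x) (Z D)ᶜ = 0 := by
  unfold pushVolume
  split_ifs with h
  · rw [Measure.map_apply (measurable_orbitMap x) (isClosed_Z D).isOpen_compl.measurableSet]
    have : (orbitMap x) ⁻¹' (Z D)ᶜ = ∅ := by
      ext u
      simp [orbitMap, act_diagA_mem_Z hx u]
    rw [this, measure_empty]
  · simp

lemma orbit_subset_Z {D : Fin n → ℝ} {x : X n} (hx : x ∈ Z D) :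
    orbit x ⊆ Z D := by
  rintro _ ⟨u, rfl⟩
  exact act_diagA_mem_Z hx u

lemma mem_orbit_self (x : X n) : x ∈ orbit x :=
  ⟨0, by simp only [orbitMap, diagA_zero, X.act_one]⟩

/-- Every orbit of the packet of an order containing `a` lies in `Z (σ a)`. -/
lemma packet_subset_Z (d : Datum n) {a : d.K} (ha : a ∈ d.O)
    {S : Set (X n)} (hS : S ∈ packet d.σ d.O) : S ⊆ Z (fun j ↦ d.σ j a) := by
  obtain ⟨I, hI, w, -, c, -, x, hx, rfl⟩ := hS
  apply orbit_subset_Z
  intro y hy
  rw [hx] at hy ⊢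
  obtain ⟨α, hα, rfl⟩ := hy
  refine ⟨a * α, (hI.2.1 a).mpr ha α hα, ?_⟩
  ext j
  rw [map_mul]
  ring

lemma packetMeasure_compl_Z (d : Datum n) {a : d.K} (ha : a ∈ d.O) :
    d.packetMeasure (Z (fun j ↦ d.σ j a))ᶜ = 0 := by
  have h : orbitSum (packet d.σ d.O) (Z (fun j ↦ d.σ j a))ᶜ = 0 := by
    rw [orbitSum, Measure.sum_apply _ (isClosed_Z _).isOpen_compl.measurableSet,
      ENNReal.tsum_eq_zero]
    rintro ⟨S, hS⟩
    dsimp only
    unfold orbitMeasure
    split_ifs with h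
    · apply pushVolume_compl_Z
      apply packet_subset_Z d ha hS
      exact (Set.ext_iff.mp h.choose_spec _).mpr (mem_orbit_self _)
    · simp
  rw [Datum.packetMeasure, normalise, Measure.smul_apply, h, smul_zero]

end Vale.Agent.Torus
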