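import Vale.Agent.Torus.Defs

namespace Vale.Agent.Torus

open MeasureTheory Matrix Filter Topology

variable {n : ℕ}

instance : T2Space (G n) := Matrix.SpecialLinearGroup.isClosedEmbedding_val.isEmbedding.t2Space

instance : LocallyCompactSpace (G n) := by
  have : LocallyCompactSpace (Matrix (Fin n) (Fin n) ℝ) :=
    inferInstanceAs (LocallyCompactSpace (Fin n → Fin n → ℝ))
  exact (Matrix.SpecialLinearGroup.isClosedEmbedding_val (n := Fin n)
    (R := ℝ)).locallyCompactSpace

instance : SecondCountableTopology (G n) := by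
  have : SecondCountableTopology (Matrix (Fin n) (Fin n) ℝ) :=
    inferInstanceAs (SecondCountableTopology (Fin n → Fin n → ℝ))
  exact (Matrix.SpecialLinearGroup.isClosedEmbedding_val (n := Fin n)
    (R := ℝ)).isEmbedding.secondCountableTopology

/-- The subgroup `SL_n(ℤ)` of `SL_n(ℝ)`. -/
abbrev Γ (n : ℕ) : Subgroup (G n) :=
  (Matrix.SpecialLinearGroup.map (n := Fin n) (Int.castRingHom ℝ)).range

instance (n : ℕ) : BorelSpace (X n) := ⟨rfl⟩

lemma X.mk_surjective {n : ℕ} : Function.Surjective (X.mk (n := n)) := Quot.mk_surjective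

lemma X.out_mk (g : G n) : ∃ γ : Γ n, (γ : G n) * g = Quotient.out (X.mk g) := by
  have h : (rel n) (Quotient.out (X.mk g)) g := Quotient.mk_out (s := rel n) g
  obtain ⟨γ, hγ⟩ := h
  exact ⟨γ, hγ⟩

lemma X.mk_gamma_mul (γ : Γ n) (g : G n) : X.mk ((γ : G n) * g) = X.mk g :=
  Quotient.sound (s := rel n) ⟨γ, rfl⟩

lemma X.act_mk {n : ℕ} (g h : G n) : X.act h (X.mk g) = X.mk (g * h) := by
  obtain ⟨γ, hγ⟩ := X.out_mk g
  rw [X.act, ← hγ, mul_assoc, X.mk_gamma_mul]

lemma X.act_act {n : ℕ} (g h : G n) (x : X n) : X.act h (X.act g x) = X.act (g * h) x := by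
  obtain ⟨k, rfl⟩ := X.mk_surjective x
  rw [X.act_mk, X.act_mk, X.act_mk, mul_assoc]

lemma X.act_one {n : ℕ} (x : X n) : X.act (1 : G n) x = x := by
  obtain ⟨k, rfl⟩ := X.mk_surjective x
  rw [X.act_mk, mul_one]

lemma lattice_gamma (γ : Γ n) (g : G n) :
    {y | ∃ v : Fin n → ℤ, y = (fun i ↦ (v i : ℝ)) ᵥ* ((γ : G n) * g).1} ⊆
      {y | ∃ v : Fin n → ℤ, y = (fun i ↦ (v i : ℝ)) ᵥ* g.1} := by
  obtain ⟨γ, ⟨δ, rfl⟩⟩ := γ
  rintro y ⟨v, rfl⟩
  refine ⟨v ᵥ* δ.1, ?_⟩
  change (fun i ↦ (v i : ℝ)) ᵥ*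
    ((Matrix.SpecialLinearGroup.map (Int.castRingHom ℝ) δ).1 * g.1) = _
  rw [← Matrix.vecMul_vecMul]
  congr 1
  ext i
  simp [Matrix.vecMul, dotProduct]

lemma mem_lattice_mk {g : G n} {y : Fin n → ℝ} :
    y ∈ (X.mk g).lattice ↔ ∃ v : Fin n → ℤ, y = (fun i ↦ (v i : ℝ)) ᵥ* g.1 := by
  obtain ⟨γ, hγ⟩ := X.out_mk g
  have h : (X.mk g).lattice = {y | ∃ v : Fin n → ℤ, y = (fun i ↦ (v i : ℝ)) ᵥ* g.1} := by
    refine Set.Subset.antisymm ?_ ?_
    · have := lattice_gamma γ g
      rw [hγ] at this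
      exact this
    · have := lattice_gamma γ⁻¹ ((γ : G n) * g)
      rw [hγ] at this
      have h2 : ((γ⁻¹ : Γ n) : G n) * Quotient.out (X.mk g) = g := by
        rw [← hγ]; simp
      rw [h2] at this
      exact this
  rw [h]; rfl

lemma diagA_add (u v : Fin (n - 1) → ℝ) : diagA (n := n) (u + v) = diagA u * diagA v := by
  apply Subtype.ext
  change Matrix.diagonal _ = Matrix.diagonal _ * Matrix.diagonal _
  rw [Matrix.diagonal_mul_diagonal]
  congr 1
  ext j
  split_ifs with h
  · simp [Real.exp_add]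
  · simp [← Real.exp_add, Finset.sum_add_distrib, add_comm]

lemma diagA_zero : diagA (n := n) (0 : Fin (n - 1) → ℝ) = 1 := by
  apply Subtype.ext
  change Matrix.diagonal _ = (1 : Matrix _ _ ℝ)
  rw [← Matrix.diagonal_one]
  congr 1
  ext j
  split_ifs <;> simp

lemma map_int_injective : Function.Injective
    (Matrix.SpecialLinearGroup.map (n := Fin n) (Int.castRingHom ℝ)) := by
  intro a b h
  apply Subtype.ext
  ext i j
  have := congrArg (fun g : G n ↦ g.1 i j) h
  simpa using this

instance gamma_discrete : ProperlyDiscontinuousSMul (Γ n) (G n) := by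
  apply Subgroup.properlyDiscontinuousSMul_of_tendsto_cofinite
  have hemb : IsClosedEmbedding
      (Matrix.SpecialLinearGroup.map (n := Fin n) (Int.castRingHom ℝ)) :=
    Topology.IsClosedEmbedding.specialLinearGroup_map Int.isClosedEmbedding_coe_real
  have h1 : Tendsto (Matrix.SpecialLinearGroup.map (n := Fin n) (Int.castRingHom ℝ)) cofinite
      (cocompact (G n)) := by
    have := hemb.tendsto_cocompact
    rwa [Filter.cocompact_eq_cofinite] at this
  let e := MonoidHom.ofInjective (map_int_injective (n := n))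
  have h2 : (⇑(Γ n).subtype) =
      (Matrix.SpecialLinearGroup.map (n := Fin n) (Int.castRingHom ℝ)) ∘ e.symm := by
    funext γ
    obtain ⟨δ, rfl⟩ := e.surjective γ
    rw [Function.comp_apply, MulEquiv.symm_apply_apply]
    rfl
  rw [h2]
  exact h1.comp e.symm.injective.tendsto_cofinite

lemma isOpenQuotientMap_mk : IsOpenQuotientMap (X.mk (n := n)) :=
  MulAction.isOpenQuotientMap_quotientMk (Γ := Γ n) (T := G n)

instance : T2Space (X n) :=
  inferInstanceAs (T2Space (Quotient (MulAction.orbitRel (Γ n) (G n))))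

instance : LocallyCompactSpace (X n) := isOpenQuotientMap_mk.locallyCompactSpace

lemma continuous_act (h : G n) : Continuous (X.act h) := by
  rw [isOpenQuotientMap_mk.isQuotientMap.continuous_iff]
  have : X.act h ∘ X.mk = fun g : G n ↦ X.mk (g * h) := by
    funext g; exact X.act_mk g h
  rw [this]
  exact isOpenQuotientMap_mk.continuous.comp (continuous_mul_const h)

lemma continuous_act_left (x : X n) : Continuous (fun h : G n ↦ X.act h x) := by
  obtain ⟨g, rfl⟩ := X.mk_surjective x
  have : (fun h : G n ↦ X.act h (X.mk g)) = fun h ↦ X.mk (g * h) := by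
    funext h; exact X.act_mk g h
  rw [this]
  exact isOpenQuotientMap_mk.continuous.comp (continuous_const_mul g)

/-- Nonempty open sets have positive measure for every invariant probability measure. -/
lemma measure_pos_of_isOpen {ν : Measure (X n)} (hν : IsInvariantProbability ν) {V : Set (X n)}
    (hV : IsOpen V) (hne : V.Nonempty) : 0 < ν V := by
  obtain ⟨hprob, hinv⟩ := hν
  obtain ⟨x₀, hx₀⟩ := hne
  by_contra hcon
  have h0 : ν V = 0 := le_antisymm (not_lt.mp hcon) bot_le
  obtain ⟨s, hs, hsd⟩ := TopologicalSpace.exists_countable_dense (G n)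
  have hcover : (Set.univ : Set (X n)) ⊆ ⋃ h ∈ s, (X.act h) ⁻¹' V := by
    intro x _
    obtain ⟨g, rfl⟩ := X.mk_surjective x
    obtain ⟨g₀, rfl⟩ := X.mk_surjective x₀
    have hopen : IsOpen ((fun h : G n ↦ X.act h (X.mk g)) ⁻¹' V) :=
      hV.preimage (continuous_act_left _)
    have hnon : ((fun h : G n ↦ X.act h (X.mk g)) ⁻¹' V).Nonempty := by
      refine ⟨g⁻¹ * g₀, ?_⟩
      change X.act (g⁻¹ * g₀) (X.mk g) ∈ V
      rw [X.act_mk, mul_inv_cancel_left]
      exact hx₀
    obtain ⟨h, hh, hhs⟩ := hsd.exists_mem_open hopen hnon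
    exact Set.mem_biUnion hh hhs
  have hz : ν (⋃ h ∈ s, (X.act h) ⁻¹' V) = 0 := by
    rw [measure_biUnion_null_iff hs]
    intro h _
    rw [← Measure.map_apply (continuous_act h).measurable hV.measurableSet, hinv h, h0]
  have : ν Set.univ = 0 := measure_mono_null hcover hz
  rw [measure_univ] at this
  exact one_ne_zero this

/-- If infinitely many `μ i` give zero mass to a fixed nonempty open set, then `μ i` does not
converge to an invariant probability measure. -/
lemma not_convergesTo {μ : ℕ → Measure (X n)} {ν : Measure (X n)}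
    (hν : IsInvariantProbability ν) {V : Set (X n)} (hV : IsOpen V) (hne : V.Nonempty)
    (hμ : ∃ᶠ i in atTop, μ i V = 0) : ¬ ConvergesTo μ ν := by
  rintro ⟨hconv, -⟩
  obtain ⟨x₀, hx₀⟩ := hne
  obtain ⟨f, hf1, hf0, hfc, hf01⟩ := exists_continuous_one_zero_of_isCompact
    (isCompact_singleton (x := x₀)) hV.isClosed_compl
    (by rw [Set.disjoint_singleton_left]; exact fun h ↦ h hx₀)
  have hlim := hconv f f.continuous hfc
  have hprob := hν.1
  have hzero : ∀ i, μ i V = 0 → ∫ x, f x ∂(μ i) = 0 := by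
    intro i hi
    have hae : (fun x ↦ f x) =ᵐ[μ i] 0 := by
      have : ∀ᵐ x ∂(μ i), x ∉ V := by
        rw [ae_iff]
        simpa using hi
      filter_upwards [this] with x hx
      exact hf0 hx
    rw [integral_congr_ae hae]
    simp
  have hlim0 : ∫ x, f x ∂ν = 0 := by
    by_contra hne0
    have hev := hlim.eventually (isOpen_ne.mem_nhds hne0)
    obtain ⟨i, hi1, hi2⟩ := (hμ.and_eventually hev).exists
    exact hi2 (hzero i hi1)
  have hint : Integrable (fun x ↦ f x) ν := f.continuous.integrable_of_hasCompactSupport hfc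
  have hpos : 0 < ∫ x, f x ∂ν := by
    rw [integral_pos_iff_support_of_nonneg (fun x ↦ (hf01 x).1) hint]
    apply measure_pos_of_isOpen hν
    · exact f.continuous.isOpen_support
    · refine ⟨x₀, ?_⟩
      have : f x₀ = 1 := hf1 (Set.mem_singleton x₀)
      rw [Function.mem_support, this]
      exact one_ne_zero
  exact hpos.ne' hlim0

end Vale.Agent.Torus
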