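import Vale.Agent.Torus.Pigeonhole
import Vale.Agent.Torus.Dom

namespace Vale.Agent.Torus

open NumberField NumberField.InfinitePlace NumberField.Units
  NumberField.Units.dirichletUnitTheorem

variable {n : ℕ}

/-- The place of an embedding. -/
noncomputable def Datum.place (d : Datum n) (j : Fin n) : InfinitePlace d.K :=
  InfinitePlace.mk (Complex.ofRealHom.comp (d.σ j))

lemma Datum.place_apply (d : Datum n) (j : Fin n) (x : d.K) : d.place j x = |d.σ j x| := by
  rw [Datum.place, InfinitePlace.apply]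
  simp

lemma Datum.isReal_comp (d : Datum n) (j : Fin n) :
    ComplexEmbedding.IsReal (Complex.ofRealHom.comp (d.σ j)) := by
  rw [ComplexEmbedding.isReal_iff]
  ext x
  simp [ComplexEmbedding.conjugate]

lemma Datum.place_bijective (d : Datum n) : Function.Bijective d.place := by
  constructor
  · intro i j hij
    unfold Datum.place at hij
    rw [InfinitePlace.mk_eq_iff, ComplexEmbedding.isReal_iff.mp (d.isReal_comp i), or_self] at hij
    apply d.σ_bij.injective
    ext x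
    have := RingHom.congr_fun hij x
    simpa using this
  · intro w
    obtain ⟨j, hj⟩ := d.exists_sigma_eq w.embedding
    refine ⟨j, ?_⟩
    rw [Datum.place, ← hj, InfinitePlace.mk_embedding]

lemma Datum.mult_eq_one (d : Datum n) (w : InfinitePlace d.K) : w.mult = 1 := by
  obtain ⟨j, rfl⟩ := d.place_bijective.surjective w
  rw [InfinitePlace.mult, if_pos]
  exact InfinitePlace.isReal_mk_iff.mpr (d.isReal_comp j)

lemma Datum.exists_mul_mem (d : Datum n) :
    ∃ m : ℤ, m ≠ 0 ∧ ∀ x : d.K, IsIntegral ℤ x → (m : d.K) * x ∈ d.O := by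
  classical
  let b := RingOfIntegers.basis d.K
  choose k hk0 hk using fun i ↦ d.isOrder.2 (b i : d.K)
  refine ⟨∏ i, k i, Finset.prod_ne_zero_iff.mpr fun i _ ↦ hk0 i, fun x hx ↦ ?_⟩
  have h1 := b.sum_repr (⟨x, hx⟩ : 𝓞 d.K)
  have h2 : x = ∑ i, (b.repr (⟨x, hx⟩ : 𝓞 d.K) i : d.K) * (b i : d.K) := by
    have h3 := congrArg (algebraMap (𝓞 d.K) d.K) h1
    rw [map_sum] at h3
    refine h3.symm.trans (Finset.sum_congr rfl fun i _ ↦ ?_)
    simp
  rw [h2, Finset.mul_sum]
  refine d.O.sum_mem fun i _ ↦ ?_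
  have h3 : ((∏ i, k i : ℤ) : d.K) = (∏ j ∈ Finset.univ.erase i, (k j : d.K)) * (k i : d.K) := by
    push_cast
    rw [Finset.prod_erase_mul _ _ (Finset.mem_univ i)]
  rw [h3]
  have h4 : (∏ j ∈ Finset.univ.erase i, (k j : d.K)) * (k i : d.K) *
      ((b.repr (⟨x, hx⟩ : 𝓞 d.K) i : d.K) * (b i : d.K)) =
      (((∏ j ∈ Finset.univ.erase i, k j) * b.repr (⟨x, hx⟩ : 𝓞 d.K) i : ℤ) : d.K) *
        ((k i : d.K) * (b i : d.K)) := by
    push_cast; ring
  rw [h4]
  exact d.O.mul_mem (intCast_mem _ _) (hk i)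

lemma Datum.exists_unit_pow (d : Datum n) :
    ∃ k : ℕ, 0 < k ∧ ∀ ε : (𝓞 d.K)ˣ, ((ε ^ k : (𝓞 d.K)ˣ) : d.K) ∈ d.O := by
  obtain ⟨m, hm, hmO⟩ := d.exists_mul_mem
  let J : Ideal (𝓞 d.K) := Ideal.span {(m : 𝓞 d.K)}
  have hJ : J ≠ ⊥ := by
    intro h
    rw [Ideal.span_singleton_eq_bot] at h
    exact hm (by exact_mod_cast h)
  have hfin : Finite (𝓞 d.K ⧸ J) := Ring.HasFiniteQuotients.finiteQuotient hJ
  refine ⟨Nat.card (𝓞 d.K ⧸ J)ˣ, Nat.card_pos, fun ε ↦ ?_⟩
  have h1 : (Units.map (Ideal.Quotient.mk J).toMonoidHom ε) ^ Nat.card (𝓞 d.K ⧸ J)ˣ = 1 :=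
    pow_card_eq_one'
  have h2 : Ideal.Quotient.mk J ((ε ^ Nat.card (𝓞 d.K ⧸ J)ˣ : (𝓞 d.K)ˣ) : 𝓞 d.K) =
      Ideal.Quotient.mk J 1 := by
    have h3 := congrArg Units.val h1
    rw [← map_pow] at h3
    exact h3
  rw [Ideal.Quotient.eq, Ideal.mem_span_singleton'] at h2
  obtain ⟨β, hβ⟩ := h2
  have h4 : ((ε ^ Nat.card (𝓞 d.K ⧸ J)ˣ : (𝓞 d.K)ˣ) : d.K) = (m : d.K) * (β : d.K) + 1 := by
    have h5 := congrArg (algebraMap (𝓞 d.K) d.K) hβ
    simp only [map_mul, map_sub, map_one, map_intCast] at h5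
    rw [mul_comm (m : d.K)]
    rw [h5]
    simp
  rw [h4]
  exact d.O.add_mem (hmO _ β.2) d.O.one_mem

open scoped Classical in
/-- The linear map from the logarithmic space to `ℝ^{n-1}`. -/
noncomputable def Datum.T (d : Datum n) : logSpace d.K →ₗ[ℝ] (Fin (n - 1) → ℝ) := {
    toFun := fun v i ↦ if h : d.place ⟨i, by omega⟩ = w₀ then -∑ w, v w
      else v ⟨d.place ⟨i, by omega⟩, h⟩
    map_add' := by
      intro v v'
      ext i
      simp only [Pi.add_apply]
      split_ifs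
      · rw [Finset.sum_add_distrib, neg_add]
      · rfl
    map_smul' := by
      intro c v
      ext i
      simp only [Pi.smul_apply, smul_eq_mul, RingHom.id_apply]
      split_ifs
      · rw [← Finset.mul_sum, mul_neg]
      · rfl }

open scoped Classical in
lemma Datum.T_apply_of_eq (d : Datum n) (v : logSpace d.K) {i : Fin (n - 1)}
    (h : d.place ⟨i, by omega⟩ = w₀) : d.T v i = -∑ w, v w := by
  change (if h : d.place ⟨i, by omega⟩ = w₀ then -∑ w, v w
      else v ⟨d.place ⟨i, by omega⟩, h⟩) = _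
  rw [dif_pos h]

open scoped Classical in
lemma Datum.T_apply_of_ne (d : Datum n) (v : logSpace d.K) {i : Fin (n - 1)}
    (h : d.place ⟨i, by omega⟩ ≠ w₀) : d.T v i = v ⟨d.place ⟨i, by omega⟩, h⟩ := by
  change (if h : d.place ⟨i, by omega⟩ = w₀ then -∑ w, v w
      else v ⟨d.place ⟨i, by omega⟩, h⟩) = _
  rw [dif_neg h]

lemma Datum.T_logEmbedding (d : Datum n) (ε : (𝓞 d.K)ˣ) (i : Fin (n - 1)) :
    d.T (logEmbedding d.K (Additive.ofMul ε)) i =
      Real.log |d.σ ⟨i, by omega⟩ (ε : d.K)| := by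
  by_cases h : d.place ⟨i, by omega⟩ = w₀
  · rw [d.T_apply_of_eq _ h, sum_logEmbedding_component, d.mult_eq_one, ← h, d.place_apply]
    simp
  · rw [d.T_apply_of_ne _ h, logEmbedding_component, d.mult_eq_one, d.place_apply]
    simp

lemma sum_full (hn : 0 < n) (u : Fin (n - 1) → ℝ) : ∑ j, full u j = 0 := by
  rcases n with _ | m
  · omega
  · rw [Fin.sum_univ_castSucc]
    have h1 : full u (Fin.last m) = -∑ i, u i := by
      unfold full; rw [dif_neg (by simp)]
    have h2 : ∀ i : Fin m, full u (Fin.castSucc i) = u i := by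
      intro i
      unfold full; rw [dif_pos (by simp)]; rfl
    rw [h1]
    simp only [h2]
    exact add_neg_cancel _

lemma Datum.T_surjective (d : Datum n) : Function.Surjective d.T := by
  classical
  intro u
  rcases Nat.eq_zero_or_pos n with hn | hn
  · exact ⟨0, funext fun i ↦ by have := i.2; omega⟩
  let e : Fin n ≃ InfinitePlace d.K := Equiv.ofBijective d.place d.place_bijective
  have he : ∀ j, e.symm (d.place j) = j := fun j ↦ e.symm_apply_apply j
  refine ⟨fun w ↦ full u (e.symm w.1), ?_⟩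
  ext i
  have hfi : full u (⟨i, by omega⟩ : Fin n) = u i := by
    unfold full; rw [dif_pos i.2]
  by_cases h : d.place ⟨i, by omega⟩ = w₀
  · rw [d.T_apply_of_eq _ h]
    have h1 : ∑ w : InfinitePlace d.K, full u (e.symm w) = 0 := by
      rw [Equiv.sum_comp e.symm (fun j ↦ full u j)]
      exact sum_full hn u
    rw [Fintype.sum_eq_add_sum_subtype_ne _ (w₀ : InfinitePlace d.K)] at h1
    rw [← h, he, h] at h1
    rw [← hfi]
    linarith
  · rw [d.T_apply_of_ne _ h, he, hfi]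

end Vale.Agent.Torus
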